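import Vale.Agent.P254.Defs

/-!
P254: the isotropic constant is invariant under invertible affine maps.
-/

open MeasureTheory

namespace Vale.Agent.P254

namespace Aff

variable {n : ℕ}

/-- the matrix of the linear part -/
noncomputable def mat (T : (Fin n → ℝ) ≃ᵃ[ℝ] (Fin n → ℝ)) : Matrix (Fin n) (Fin n) ℝ :=
  LinearMap.toMatrix' (T.linear : (Fin n → ℝ) →ₗ[ℝ] (Fin n → ℝ))

theorem apply_eq (T : (Fin n → ℝ) ≃ᵃ[ℝ] (Fin n → ℝ)) (x : Fin n → ℝ) :
    T x = (T.linear : (Fin n → ℝ) →ₗ[ℝ] (Fin n → ℝ)) x + T 0 := by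
  have h := T.map_vadd 0 x
  simpa using h

theorem apply_coord (T : (Fin n → ℝ) ≃ᵃ[ℝ] (Fin n → ℝ)) (x : Fin n → ℝ) (i : Fin n) :
    T x i = ∑ j, mat T i j * x j + T 0 i := by
  rw [apply_eq T x, Pi.add_apply]
  congr 1
  have h := LinearMap.toMatrix'_mulVec (T.linear : (Fin n → ℝ) →ₗ[ℝ] (Fin n → ℝ)) x
  have h2 := congrFun h i
  rw [← h2]
  rfl

theorem det_mat (T : (Fin n → ℝ) ≃ᵃ[ℝ] (Fin n → ℝ)) :
    (mat T).det = LinearMap.det (T.linear : (Fin n → ℝ) →ₗ[ℝ] (Fin n → ℝ)) := by
  rw [mat, LinearMap.det_toMatrix']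

theorem det_ne (T : (Fin n → ℝ) ≃ᵃ[ℝ] (Fin n → ℝ)) : (mat T).det ≠ 0 := by
  rw [det_mat]
  exact (LinearEquiv.isUnit_det' T.linear).ne_zero

theorem integral_image (T : (Fin n → ℝ) ≃ᵃ[ℝ] (Fin n → ℝ)) {K : Set (Fin n → ℝ)}
    (hK : MeasurableSet K) (g : (Fin n → ℝ) → ℝ) :
    ∫ y in T '' K, g y = |(mat T).det| * ∫ x in K, g (T x) := by
  have hd : ∀ x ∈ K, HasFDerivWithinAt (T : (Fin n → ℝ) → (Fin n → ℝ))
      (LinearMap.toContinuousLinearMap (T.linear : (Fin n → ℝ) →ₗ[ℝ] (Fin n → ℝ))) K x := by
    intro x _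
    have h1 : HasFDerivAt (fun y => (LinearMap.toContinuousLinearMap
        (T.linear : (Fin n → ℝ) →ₗ[ℝ] (Fin n → ℝ))) y + T 0)
        (LinearMap.toContinuousLinearMap (T.linear : (Fin n → ℝ) →ₗ[ℝ] (Fin n → ℝ))) x :=
      (ContinuousLinearMap.hasFDerivAt _).add_const _
    have h2 : (T : (Fin n → ℝ) → (Fin n → ℝ)) = fun y => (LinearMap.toContinuousLinearMap
        (T.linear : (Fin n → ℝ) →ₗ[ℝ] (Fin n → ℝ))) y + T 0 := by
      funext y
      rw [apply_eq T y]
      rfl
    rw [h2]
    exact h1.hasFDerivWithinAt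
  have h := integral_image_eq_integral_abs_det_fderiv_smul volume hK hd
    (T.injective.injOn) g
  rw [h, det_mat, ← integral_const_mul]
  refine integral_congr_ae (Filter.Eventually.of_forall fun x => ?_)
  simp [ContinuousLinearMap.det]

theorem volume_image (T : (Fin n → ℝ) ≃ᵃ[ℝ] (Fin n → ℝ)) {K : Set (Fin n → ℝ)}
    (hK : MeasurableSet K) : volume.real (T '' K) = |(mat T).det| * volume.real K := by
  have h := integral_image T hK (fun _ => (1 : ℝ))
  simpa using h

end Aff

open Aff in
theorem isoConst_affine {n : ℕ} {K : Set (Fin n → ℝ)} (hc : IsCompact K)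
    (hv : volume.real K ≠ 0) (T : (Fin n → ℝ) ≃ᵃ[ℝ] (Fin n → ℝ)) :
    isoConst (T '' K) = isoConst K := by
  have hK : MeasurableSet K := hc.measurableSet
  have hd0 : |(mat T).det| ≠ 0 := abs_ne_zero.mpr (det_ne T)
  have hfin : volume K ≠ ⊤ := hc.measure_lt_top.ne
  have hint : ∀ g : (Fin n → ℝ) → ℝ, Continuous g → IntegrableOn g K :=
    fun g hg => hg.continuousOn.integrableOn_compact hc
  have hcen : ∀ i, centroid (T '' K) i = ∑ j, mat T i j * centroid K j + T 0 i := by
    intro i
    have h1 : ∫ x in K, T x i = (∑ j, mat T i j * ∫ x in K, x j) + T 0 i * volume.real K := by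
      have e1 : ∫ x in K, T x i = ∫ x in K, (∑ j, mat T i j * x j + T 0 i) :=
        integral_congr_ae (Filter.Eventually.of_forall fun x => apply_coord T x i)
      rw [e1, integral_add (hint (fun x => ∑ j, mat T i j * x j) (by fun_prop))
        (hint (fun _ => T 0 i) continuous_const),
        integral_finsetSum _ (fun j _ => hint (fun x => mat T i j * x j) (by fun_prop))]
      congr 1
      · refine Finset.sum_congr rfl fun j _ => ?_
        rw [integral_const_mul]
      · rw [setIntegral_const, smul_eq_mul, mul_comm]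
    have h2 : centroid (T '' K) i = (∫ y in T '' K, y i) / volume.real (T '' K) := rfl
    rw [h2, integral_image T hK, volume_image T hK, mul_div_mul_left _ _ hd0, h1, add_div,
      mul_div_assoc, div_self hv, mul_one, Finset.sum_div]
    congr 1
    refine Finset.sum_congr rfl fun j _ => ?_
    rw [mul_div_assoc]
    rfl
  have hdiff : ∀ (x : Fin n → ℝ) i, T x i - centroid (T '' K) i =
      ∑ j, mat T i j * (x j - centroid K j) := by
    intro x i
    rw [hcen, apply_coord T x i]
    simp_rw [mul_sub, Finset.sum_sub_distrib]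
    ring
  have hcov : cov (T '' K) = mat T * cov K * (mat T).transpose := by
    ext i k
    have h2 : cov (T '' K) i k = (∫ y in T '' K, (y i - centroid (T '' K) i) *
      (y k - centroid (T '' K) k)) / volume.real (T '' K) := rfl
    rw [h2, integral_image T hK, volume_image T hK, mul_div_mul_left _ _ hd0]
    have e : ∀ x : Fin n → ℝ, (T x i - centroid (T '' K) i) * (T x k - centroid (T '' K) k) =
        ∑ j, ∑ l, mat T i j * mat T k l * ((x j - centroid K j) * (x l - centroid K l)) := by
      intro x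
      rw [hdiff, hdiff, Finset.sum_mul_sum]
      refine Finset.sum_congr rfl fun j _ => Finset.sum_congr rfl fun l _ => ?_
      ring
    rw [integral_congr_ae (Filter.Eventually.of_forall e),
      integral_finsetSum _ (fun j _ => by
        refine integrable_finsetSum _ fun l _ => ?_
        exact hint (fun x => mat T i j * mat T k l * ((x j - centroid K j) *
          (x l - centroid K l))) (by fun_prop))]
    have e2 : ∀ j, ∫ x in K, ∑ l, mat T i j * mat T k l *
        ((x j - centroid K j) * (x l - centroid K l)) =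
        ∑ l, mat T i j * mat T k l * ∫ x in K, (x j - centroid K j) * (x l - centroid K l) := by
      intro j
      rw [integral_finsetSum _ (fun l _ => hint (fun x => mat T i j * mat T k l *
        ((x j - centroid K j) * (x l - centroid K l))) (by fun_prop))]
      refine Finset.sum_congr rfl fun l _ => ?_
      rw [integral_const_mul]
    have e3 : ∀ j l, (∫ x in K, (x j - centroid K j) * (x l - centroid K l)) / volume.real K =
      cov K j l := fun _ _ => rfl
    rw [Finset.sum_congr rfl (fun j _ => e2 j), Finset.sum_div]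
    have e4 : ∀ j, (∑ l, mat T i j * mat T k l * ∫ x in K, (x j - centroid K j) *
        (x l - centroid K l)) / volume.real K = ∑ l, mat T i j * mat T k l * cov K j l := by
      intro j
      rw [Finset.sum_div]
      refine Finset.sum_congr rfl fun l _ => ?_
      rw [mul_div_assoc, e3]
    rw [Finset.sum_congr rfl (fun j _ => e4 j), Matrix.mul_apply]
    rw [Finset.sum_comm]
    refine Finset.sum_congr rfl fun l _ => ?_
    rw [Matrix.mul_apply, Matrix.transpose_apply, Finset.sum_mul]
    refine Finset.sum_congr rfl fun j _ => ?_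
    ring
  have h3 : isoConst (T '' K) = ((cov (T '' K)).det / volume.real (T '' K) ^ 2) ^
    (1 / (2 * (n : ℝ))) := rfl
  have h4 : isoConst K = ((cov K).det / volume.real K ^ 2) ^ (1 / (2 * (n : ℝ))) := rfl
  rw [h3, h4, hcov, volume_image T hK, Matrix.det_mul, Matrix.det_mul, Matrix.det_transpose]
  congr 1
  rw [mul_pow, sq_abs]
  have hd1 : (mat T).det ≠ 0 := det_ne T
  field_simp

end Vale.Agent.P254
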