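import Mathlib

/-! P254: Chebyshev's inequality for several similarly ordered functions. -/

namespace Vale.Agent.P254.Cheb

open MeasureTheory
open scoped ENNReal

theorem rearr {a b c d : ℝ≥0∞} (hab : b ≤ a) (hcd : d ≤ c) : a * d + b * c ≤ a * c + b * d := by
  obtain ⟨e, rfl⟩ := exists_add_of_le hab
  obtain ⟨k, rfl⟩ := exists_add_of_le hcd
  calc (b + e) * d + b * (d + k) ≤ ((b + e) * d + b * (d + k)) + e * k := le_self_add
    _ = (b + e) * (d + k) + b * d := by ring

/-- two functions which are similarly ordered on pairs of positive weight -/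
theorem two {Ω : Type*} [MeasurableSpace Ω] {μ : Measure Ω} [SFinite μ] {f g w : Ω → ℝ≥0∞}
    (hf : Measurable f) (hg : Measurable g) (hw : Measurable w)
    (h : ∀ x y, w x ≠ 0 → w y ≠ 0 → (f y ≤ f x ∧ g y ≤ g x) ∨ (f x ≤ f y ∧ g x ≤ g y)) :
    (∫⁻ x, f x * w x ∂μ) * (∫⁻ x, g x * w x ∂μ) ≤
      (∫⁻ x, f x * g x * w x ∂μ) * (∫⁻ x, w x ∂μ) := by
  have e1 : ∀ F G : Ω → ℝ≥0∞, Measurable F → Measurable G →
      (∫⁻ x, F x ∂μ) * (∫⁻ y, G y ∂μ) = ∫⁻ x, ∫⁻ y, F x * G y ∂μ ∂μ := by
    intro F G hF hG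
    have : ∀ x, ∫⁻ y, F x * G y ∂μ = F x * ∫⁻ y, G y ∂μ :=
      fun x => lintegral_const_mul _ hG
    simp_rw [this]
    rw [lintegral_mul_const _ hF]
  have hfw := hf.mul hw
  have hgw := hg.mul hw
  have hfgw := (hf.mul hg).mul hw
  have hpt : ∀ x y, (f x * w x) * (g y * w y) + (g x * w x) * (f y * w y) ≤
      (f x * g x * w x) * w y + w x * (f y * g y * w y) := by
    intro x y
    by_cases hx : w x = 0
    · simp [hx]
    by_cases hy : w y = 0
    · simp [hy]
    have key : f x * g y + f y * g x ≤ f x * g x + f y * g y := by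
      rcases h x y hx hy with h1 | h1
      · exact rearr h1.1 h1.2
      · have := rearr h1.1 h1.2
        calc f x * g y + f y * g x = f y * g x + f x * g y := add_comm _ _
          _ ≤ f y * g y + f x * g x := this
          _ = _ := add_comm _ _
    calc (f x * w x) * (g y * w y) + (g x * w x) * (f y * w y)
        = (f x * g y + f y * g x) * (w x * w y) := by ring
      _ ≤ (f x * g x + f y * g y) * (w x * w y) := by gcongr
      _ = _ := by ring
  have hI : (∫⁻ x, f x * w x ∂μ) * (∫⁻ x, g x * w x ∂μ) +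
      (∫⁻ x, g x * w x ∂μ) * (∫⁻ x, f x * w x ∂μ) ≤
      (∫⁻ x, f x * g x * w x ∂μ) * (∫⁻ x, w x ∂μ) +
      (∫⁻ x, w x ∂μ) * (∫⁻ x, f x * g x * w x ∂μ) := by
    rw [e1 (fun x => f x * w x) (fun x => g x * w x) hfw hgw,
      e1 (fun x => g x * w x) (fun x => f x * w x) hgw hfw,
      e1 (fun x => f x * g x * w x) w hfgw hw,
      e1 w (fun x => f x * g x * w x) hw hfgw]
    rw [← lintegral_add_left, ← lintegral_add_left]
    · refine lintegral_mono fun x => ?_
      simp only
      rw [← lintegral_add_left, ← lintegral_add_left]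
      · exact lintegral_mono fun y => hpt x y
      · exact hw.const_mul _
      · exact hgw.const_mul _
    · exact Measurable.lintegral_prod_right'
        (f := fun p : Ω × Ω => f p.1 * g p.1 * w p.1 * w p.2)
        ((hfgw.comp measurable_fst).mul (hw.comp measurable_snd))
    · exact Measurable.lintegral_prod_right'
        (f := fun p : Ω × Ω => f p.1 * w p.1 * (g p.2 * w p.2))
        ((hfw.comp measurable_fst).mul (hgw.comp measurable_snd))
  rw [mul_comm (∫⁻ x, g x * w x ∂μ) (∫⁻ x, f x * w x ∂μ),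
    mul_comm (∫⁻ x, w x ∂μ) (∫⁻ x, f x * g x * w x ∂μ), ← two_mul, ← two_mul] at hI
  exact (ENNReal.mul_le_mul_iff_right (by norm_num) (by norm_num)).1 hI

/-- Chebyshev's inequality for finitely many functions on the line which decrease on `[0, ∞)`;
the weight lives on `[0, ∞)`. -/
theorem prod {ι : Type*} (s : Finset ι) {f : ι → ℝ → ℝ≥0∞} {w : ℝ → ℝ≥0∞}
    (hf : ∀ i, Measurable (f i)) (hw : Measurable w) (hw0 : ∀ t, t < 0 → w t = 0)
    (ha : ∀ i x y, 0 ≤ x → x ≤ y → f i y ≤ f i x) :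
    (∏ i ∈ s, ∫⁻ t, f i t * w t) * (∫⁻ t, w t) ≤
      (∫⁻ t, (∏ i ∈ s, f i t) * w t) * (∫⁻ t, w t) ^ s.card := by
  classical
  induction s using Finset.induction_on with
  | empty => simp
  | insert a s has ih =>
    rw [Finset.prod_insert has, Finset.card_insert_of_notMem has, mul_assoc]
    have hP : Measurable (fun t => ∏ i ∈ s, f i t) := Finset.measurable_prod _ (fun i _ => hf i)
    have h2 := two (μ := volume) (f := f a) (g := fun t => ∏ i ∈ s, f i t) (hf a) hP hw (by
      intro x y hx hy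
      have hx0 : 0 ≤ x := by
        by_contra hc
        exact hx (hw0 x (not_le.1 hc))
      have hy0 : 0 ≤ y := by
        by_contra hc
        exact hy (hw0 y (not_le.1 hc))
      rcases le_total x y with hxy | hxy
      · exact Or.inl ⟨ha a x y hx0 hxy, Finset.prod_le_prod' fun i _ => ha i x y hx0 hxy⟩
      · exact Or.inr ⟨ha a y x hy0 hxy, Finset.prod_le_prod' fun i _ => ha i y x hy0 hxy⟩)
    calc (∫⁻ t, f a t * w t) * ((∏ i ∈ s, ∫⁻ t, f i t * w t) * ∫⁻ t, w t)
        ≤ (∫⁻ t, f a t * w t) * ((∫⁻ t, (∏ i ∈ s, f i t) * w t) * (∫⁻ t, w t) ^ s.card) := by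
          gcongr
      _ = ((∫⁻ t, f a t * w t) * (∫⁻ t, (∏ i ∈ s, f i t) * w t)) * (∫⁻ t, w t) ^ s.card := by
          ring
      _ ≤ ((∫⁻ t, f a t * (∏ i ∈ s, f i t) * w t) * (∫⁻ t, w t)) * (∫⁻ t, w t) ^ s.card := by
          gcongr
      _ = (∫⁻ t, (∏ i ∈ insert a s, f i t) * w t) * (∫⁻ t, w t) ^ (s.card + 1) := by
          rw [mul_assoc, ← pow_succ']
          congr 1
          refine lintegral_congr fun t => ?_
          rw [Finset.prod_insert has]

end Vale.Agent.P254.Cheb
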