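import Vale.Agent.P254.Defs

/-!
P254, row Q3: facts on the sections of a compact, convex, down-closed, permutation invariant body.
-/

namespace Vale.Agent.P254

open MeasureTheory
open scoped ENNReal

namespace Sec

theorem lintegral_fin_succ {d : ℕ} {f : (Fin (d + 1) → ℝ) → ℝ≥0∞} (hf : Measurable f) :
    ∫⁻ x, f x = ∫⁻ a : ℝ, ∫⁻ v : Fin d → ℝ, f (Fin.cons a v) := by
  have hmp := (volume_preserving_piFinSuccAbove (fun _ : Fin (d + 1) => ℝ) 0).symm
  have h1 : ∀ p : ℝ × (Fin d → ℝ),
      (MeasurableEquiv.piFinSuccAbove (fun _ : Fin (d + 1) => ℝ) 0).symm p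
        = (Fin.cons p.1 p.2 : Fin (d + 1) → ℝ) := by
    intro p
    simp [MeasurableEquiv.piFinSuccAbove, Fin.insertNthEquiv]
  have h2 := hmp.lintegral_comp hf
  rw [← h2, Measure.volume_eq_prod, lintegral_prod _ (by
    exact (hf.comp (MeasurableEquiv.measurable _)).aemeasurable)]
  simp only [h1]

theorem mp_perm {k : ℕ} (τ : Equiv.Perm (Fin k)) :
    MeasurePreserving (fun x : Fin k → ℝ => x ∘ τ) volume volume := by
  have h := volume_measurePreserving_piCongrLeft (fun _ : Fin k => ℝ) τ.symm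
  have h2 : (fun x : Fin k → ℝ => x ∘ τ) =
      (MeasurableEquiv.piCongrLeft (fun _ : Fin k => ℝ) τ.symm) := by
    funext x j
    have := Equiv.piCongrLeft_apply_apply (fun _ : Fin k => ℝ) τ.symm x (τ j)
    simp only [Equiv.symm_apply_apply] at this
    exact this.symm
  rw [h2]
  exact h

theorem cont_cons {n : ℕ} :
    Continuous (fun p : ℝ × (Fin n → ℝ) => (Fin.cons p.1 p.2 : Fin (n + 1) → ℝ)) := by
  refine continuous_pi fun i => ?_
  refine Fin.cases ?_ (fun j => ?_) i
  · simpa using continuous_fst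
  · simp only [Fin.cons_succ]
    exact (continuous_apply j).comp continuous_snd

theorem cont_cons' {n : ℕ} (t : ℝ) :
    Continuous (fun y : Fin n → ℝ => (Fin.cons t y : Fin (n + 1) → ℝ)) :=
  cont_cons.comp (Continuous.prodMk_right t)

theorem sec_meas {n : ℕ} {D : Set (Fin (n + 1) → ℝ)} (h : AB D) (t : ℝ) :
    MeasurableSet (sec D t) :=
  (cont_cons' t).measurable h.compact.measurableSet

/-- Fubini over the first coordinate. -/
theorem fub {n : ℕ} {D : Set (Fin (n + 1) → ℝ)} (h : AB D) {g : (Fin (n + 1) → ℝ) → ℝ≥0∞}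
    (hg : Measurable g) :
    ∫⁻ x in D, g x = ∫⁻ t : ℝ, ∫⁻ y in sec D t, g (Fin.cons t y) := by
  have hD : MeasurableSet D := h.compact.measurableSet
  rw [← lintegral_indicator hD, lintegral_fin_succ (hg.indicator hD)]
  refine lintegral_congr fun t => ?_
  rw [← lintegral_indicator (sec_meas h t)]
  rfl

end Sec

theorem sec_ab {n : ℕ} {D : Set (Fin (n + 1) → ℝ)} (h : AB D) (t : ℝ) : AB (sec D t) := by
  refine ⟨?_, ?_, ?_, ?_, ?_⟩
  · have h1 : sec D t = (fun x : Fin (n + 1) → ℝ => Fin.tail x) '' (D ∩ {x | x 0 = t}) := by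
      ext y
      constructor
      · intro hy
        exact ⟨Fin.cons t y, ⟨hy, by simp⟩, by simp⟩
      · rintro ⟨x, ⟨hx, hx0⟩, rfl⟩
        have : (Fin.cons t (Fin.tail x) : Fin (n + 1) → ℝ) = x := by
          rw [← (show x 0 = t from hx0)]
          exact Fin.cons_self_tail x
        change (Fin.cons t (Fin.tail x) : Fin (n + 1) → ℝ) ∈ D
        rw [this]
        exact hx
    rw [h1]
    refine IsCompact.image (h.compact.inter_right ?_) ?_
    · exact isClosed_eq (continuous_apply 0) continuous_const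
    · exact continuous_pi fun j => continuous_apply j.succ
  · intro x hx y hy a b ha hb hab
    have h2 := h.conv hx hy ha hb hab
    change (Fin.cons t (a • x + b • y) : Fin (n + 1) → ℝ) ∈ D
    have h3 : (Fin.cons t (a • x + b • y) : Fin (n + 1) → ℝ) =
        a • (Fin.cons t x : Fin (n + 1) → ℝ) + b • (Fin.cons t y : Fin (n + 1) → ℝ) := by
      funext i
      refine Fin.cases ?_ (fun j => ?_) i
      · simp only [Fin.cons_zero, Pi.add_apply, Pi.smul_apply, smul_eq_mul]
        rw [← add_mul, hab, one_mul]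
      · simp
    rw [h3]
    exact h2
  · intro x hx i
    simpa using h.nonneg _ hx i.succ
  · intro x hx y hy0 hyx
    have ht : 0 ≤ t := by simpa using h.nonneg _ hx 0
    refine h.down _ hx (Fin.cons t y) ?_ ?_
    · intro i
      refine Fin.cases ?_ (fun j => ?_) i
      · simpa using ht
      · simpa using hy0 j
    · intro i
      refine Fin.cases ?_ (fun j => ?_) i
      · simp
      · simpa using hyx j
  · intro x hx π
    have h2 := h.symm _ hx (Equiv.Perm.decomposeFin.symm (0, π))
    have h3 : (Fin.cons t (x ∘ π) : Fin (n + 1) → ℝ) =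
        (Fin.cons t x : Fin (n + 1) → ℝ) ∘ (Equiv.Perm.decomposeFin.symm (0, π)) := by
      funext i
      refine Fin.cases ?_ (fun j => ?_) i
      · simp
      · simp
    change (Fin.cons t (x ∘ π) : Fin (n + 1) → ℝ) ∈ D
    rw [h3]
    exact h2

theorem A_meas {n : ℕ} {D : Set (Fin (n + 1) → ℝ)} (h : AB D) : Measurable (A D) := by
  have hD : MeasurableSet D := h.compact.measurableSet
  have h1 : MeasurableSet ((fun p : ℝ × (Fin n → ℝ) => (Fin.cons p.1 p.2 : Fin (n + 1) → ℝ)) ⁻¹' D) :=
    Sec.cont_cons.measurable hD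
  exact measurable_measure_prodMk_left h1

theorem A_neg {n : ℕ} {D : Set (Fin (n + 1) → ℝ)} (h : AB D) {t : ℝ} (ht : t < 0) :
    A D t = 0 := by
  have : sec D t = ∅ := by
    rw [Set.eq_empty_iff_forall_notMem]
    intro y hy
    have : 0 ≤ t := by simpa using h.nonneg _ hy 0
    linarith
  simp [A, this]

theorem A_anti {n : ℕ} {D : Set (Fin (n + 1) → ℝ)} (h : AB D) {x y : ℝ} (hx : 0 ≤ x)
    (hxy : x ≤ y) : A D y ≤ A D x := by
  refine measure_mono fun z hz => ?_
  refine h.down _ hz (Fin.cons x z) ?_ ?_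
  · intro i
    refine Fin.cases ?_ (fun j => ?_) i
    · simpa using hx
    · simpa using h.nonneg _ hz j.succ
  · intro i
    refine Fin.cases ?_ (fun j => ?_) i
    · simpa using hxy
    · simp

theorem A_int {n : ℕ} {D : Set (Fin (n + 1) → ℝ)} (h : AB D) :
    ∫⁻ t, A D t = volume D := by
  have h1 := Sec.fub h (g := fun _ => 1) measurable_const
  simp only [lintegral_const, one_mul, MeasurableSet.univ, Measure.restrict_apply,
    Set.univ_inter] at h1
  rw [h1]
  rfl

theorem mom_int {n : ℕ} {D : Set (Fin (n + 1) → ℝ)} (h : AB D) :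
    ∫⁻ x in D, ENNReal.ofReal (x 0) = ∫⁻ t, ENNReal.ofReal t * A D t := by
  rw [Sec.fub h (g := fun x => ENNReal.ofReal (x 0))
    ((measurable_pi_apply 0).ennreal_ofReal)]
  refine lintegral_congr fun t => ?_
  simp only [Fin.cons_zero, lintegral_const, MeasurableSet.univ, Measure.restrict_apply,
    Set.univ_inter]
  rfl

theorem mom2_int {n : ℕ} {D : Set (Fin (n + 1) → ℝ)} (h : AB D) :
    ∫⁻ x in D, ENNReal.ofReal (x 0) ^ 2 = ∫⁻ t, ENNReal.ofReal t ^ 2 * A D t := by
  rw [Sec.fub h (g := fun x => ENNReal.ofReal (x 0) ^ 2)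
    (((measurable_pi_apply 0).ennreal_ofReal).pow_const 2)]
  refine lintegral_congr fun t => ?_
  simp only [Fin.cons_zero, lintegral_const, MeasurableSet.univ, Measure.restrict_apply,
    Set.univ_inter]
  rfl

theorem mom_succ {n : ℕ} {D : Set (Fin (n + 1) → ℝ)} (h : AB D) (j : Fin n) :
    ∫⁻ x in D, ENNReal.ofReal (x j.succ) =
      ∫⁻ t, ∫⁻ y in sec D t, ENNReal.ofReal (y j) := by
  rw [Sec.fub h (g := fun x => ENNReal.ofReal (x j.succ))
    ((measurable_pi_apply j.succ).ennreal_ofReal)]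
  refine lintegral_congr fun t => ?_
  simp only [Fin.cons_succ]

theorem mom_symm {n : ℕ} {D : Set (Fin n → ℝ)} (h : AB D) (i j : Fin n) :
    ∫⁻ x in D, ENNReal.ofReal (x i) = ∫⁻ x in D, ENNReal.ofReal (x j) := by
  have hD : MeasurableSet D := h.compact.measurableSet
  have hmp := Sec.mp_perm (Equiv.swap i j)
  have hpre : (fun x : Fin n → ℝ => x ∘ (Equiv.swap i j)) ⁻¹' D = D := by
    ext x
    constructor
    · intro hx
      have h2 := h.symm _ hx (Equiv.swap i j)
      have h3 : (x ∘ (Equiv.swap i j)) ∘ (Equiv.swap i j) = x := by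
        funext k
        simp
      change (x ∘ (Equiv.swap i j)) ∘ (Equiv.swap i j) ∈ D at h2
      rwa [h3] at h2
    · intro hx
      exact h.symm _ hx _
  have h4 := hmp.setLIntegral_comp_preimage hD
    (f := fun x => ENNReal.ofReal (x j)) ((measurable_pi_apply j).ennreal_ofReal)
  rw [hpre] at h4
  rw [← h4]
  refine lintegral_congr fun x => ?_
  simp

end Vale.Agent.P254
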