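import Vale.Agent.P254.Lin
import Vale.Agent.P254.PN
import Vale.Agent.P254.Sec

namespace Vale.Agent.P254

open MeasureTheory
open scoped ENNReal

namespace Core

theorem vol_fin {n : ℕ} {D : Set (Fin n → ℝ)} (h : AB D) : volume D ≠ ∞ :=
  h.compact.measure_lt_top.ne

theorem A_fin {n : ℕ} {D : Set (Fin (n + 1) → ℝ)} (h : AB D) (t : ℝ) : A D t ≠ ∞ :=
  vol_fin (sec_ab h t)

theorem pn {n : ℕ} {D : Set (Fin (n + 1) → ℝ)} (h : AB D) (x y : ℝ) (hx : 0 ≤ x)
    (hxy : x ≤ y) : F D y * A D x ≤ F D x * A D y := by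
  have h1 := sec_pn h hx hxy
  have h2 : ((n : ℝ≥0∞) + 1) * (F D y * A D x) ≤ ((n : ℝ≥0∞) + 1) * (F D x * A D y) :=
    le_trans le_add_self h1
  have h3 : ((n : ℝ≥0∞) + 1) ≠ 0 := by positivity
  have h4 : ((n : ℝ≥0∞) + 1) ≠ ∞ := by simp
  exact (ENNReal.mul_le_mul_iff_right h3 h4).1 h2

theorem lin1_D {n : ℕ} {D : Set (Fin (n + 1) → ℝ)} (h : AB D) :
    2 * (∫⁻ x in D, ENNReal.ofReal (x 0)) * (∫⁻ t, A D t ^ 2) ≤ volume D ^ 3 := by
  rw [mom_int h, ← A_int h]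
  refine lin1 (f := F D) (A_meas h) (fun t => rfl) (fun t ht => A_neg h ht)
    (fun x y hx hxy => A_anti h hx hxy) ?_ (fun x y hx hxy => pn h x y hx hxy)
  rw [A_int h]
  exact vol_fin h

theorem mom_fin {n : ℕ} {D : Set (Fin (n + 1) → ℝ)} (h : AB D) (k : ℕ) :
    ∫⁻ x in D, ENNReal.ofReal (x 0) ^ k ≠ ∞ := by
  obtain ⟨R, hR⟩ := h.compact.isBounded.exists_norm_le
  have hb : ∀ x ∈ D, ENNReal.ofReal (x 0) ^ k ≤ ENNReal.ofReal R ^ k := by
    intro x hx
    gcongr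
    exact (le_abs_self _).trans ((norm_le_pi_norm x 0).trans (hR x hx))
  have h1 : ∫⁻ x in D, ENNReal.ofReal (x 0) ^ k ≤ ∫⁻ x in D, ENNReal.ofReal R ^ k :=
    setLIntegral_mono' h.compact.measurableSet hb
  rw [setLIntegral_const] at h1
  refine (lt_of_le_of_lt h1 ?_).ne
  exact ENNReal.mul_lt_top (by simp) (vol_fin h).lt_top

theorem zero_case {D : Set (Fin (0 + 1) → ℝ)} (h : AB D) :
    (2 * ∫⁻ x in D, ENNReal.ofReal (x 0)) ≤ volume D ^ 2 := by
  have hA : ∀ t, A D t ^ 2 = A D t := by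
    intro t
    rcases Set.eq_empty_or_nonempty (sec D t) with h1 | h1
    · simp [A, h1]
    · have h2 : sec D t = Set.univ := Subsingleton.eq_univ_of_nonempty h1
      have h3 : (volume : Measure (Fin 0 → ℝ)) Set.univ = 1 := by
        rw [volume_pi, Measure.pi_univ]
        simp
      simp [A, h2, h3]
  have h1 := lin1_D h
  have h2 : ∫⁻ t, A D t ^ 2 = volume D := by
    rw [← A_int h]
    exact lintegral_congr hA
  rw [h2] at h1
  by_cases hV : volume D = 0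
  · have : ∫⁻ x in D, ENNReal.ofReal (x 0) = 0 := by
      rw [Measure.restrict_eq_zero.2 hV]
      simp
    rw [this]
    simp
  · have h3 : (2 * ∫⁻ x in D, ENNReal.ofReal (x 0)) * volume D ≤ volume D ^ 2 * volume D := by
      rw [← pow_succ]
      exact h1
    exact (ENNReal.mul_le_mul_iff_left hV (vol_fin h)).1 h3

end Core

theorem core (n : ℕ) : ∀ {D : Set (Fin (n + 1) → ℝ)}, AB D →
    (2 * ∫⁻ x in D, ENNReal.ofReal (x 0)) ^ (n + 1) ≤ volume D ^ (n + 2) := by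
  induction n with
  | zero =>
    intro D h
    simpa using Core.zero_case h
  | succ n ih =>
    intro D h
    have hn0 : ((n : ℝ) + 1) ≠ 0 := by positivity
    have h1 : ∫⁻ x in D, ENNReal.ofReal (x 0) =
        ∫⁻ t, ∫⁻ y in sec D t, ENNReal.ofReal (y 0) := by
      rw [mom_symm h 0 (Fin.succ 0), mom_succ h 0]
    have h2 : ∀ t, 2 * ∫⁻ y in sec D t, ENNReal.ofReal (y 0) ≤
        A D t ^ ((n : ℝ) / (n + 1)) * (A D t ^ 2) ^ (1 / ((n : ℝ) + 1)) := by
      intro t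
      have h3 := ih (sec_ab h t)
      have h4 := ENNReal.rpow_le_rpow h3 (z := ((n + 1 : ℕ) : ℝ)⁻¹) (by positivity)
      rw [ENNReal.pow_rpow_inv_natCast (Nat.succ_ne_zero n)] at h4
      refine h4.trans (le_of_eq ?_)
      change ((A D t) ^ (n + 2)) ^ (((n + 1 : ℕ) : ℝ)⁻¹) = _
      rw [← ENNReal.rpow_natCast, ← ENNReal.rpow_natCast, ← ENNReal.rpow_mul,
        ← ENNReal.rpow_mul, ← ENNReal.rpow_add_of_nonneg _ _ (by positivity) (by positivity)]
      congr 1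
      push_cast
      field_simp
    have h5 : 2 * ∫⁻ x in D, ENNReal.ofReal (x 0) ≤
        (∫⁻ t, A D t) ^ ((n : ℝ) / (n + 1)) * (∫⁻ t, A D t ^ 2) ^ (1 / ((n : ℝ) + 1)) := by
      rw [h1, ← lintegral_const_mul' _ _ (by simp)]
      refine (lintegral_mono h2).trans ?_
      refine ENNReal.lintegral_mul_norm_pow_le (A_meas h).aemeasurable
        ((A_meas h).pow_const 2).aemeasurable (by positivity) (by positivity) ?_
      field_simp
    have h6 : (2 * ∫⁻ x in D, ENNReal.ofReal (x 0)) ^ (n + 1) ≤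
        volume D ^ n * ∫⁻ t, A D t ^ 2 := by
      have h7 := pow_le_pow_left₀ (zero_le) h5 (n + 1)
      refine h7.trans (le_of_eq ?_)
      rw [A_int h, mul_pow, ← ENNReal.rpow_natCast, ← ENNReal.rpow_natCast, ← ENNReal.rpow_mul,
        ← ENNReal.rpow_mul]
      have e1 : (n : ℝ) / (n + 1) * ((n + 1 : ℕ) : ℝ) = (n : ℝ) := by
        push_cast
        field_simp
      have e2 : 1 / ((n : ℝ) + 1) * ((n + 1 : ℕ) : ℝ) = 1 := by
        push_cast
        field_simp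
      rw [e1, e2, ENNReal.rpow_one, ENNReal.rpow_natCast]
    calc (2 * ∫⁻ x in D, ENNReal.ofReal (x 0)) ^ (n + 1 + 1)
        = (2 * ∫⁻ x in D, ENNReal.ofReal (x 0)) ^ (n + 1) *
          (2 * ∫⁻ x in D, ENNReal.ofReal (x 0)) := pow_succ _ _
      _ ≤ (volume D ^ n * ∫⁻ t, A D t ^ 2) * (2 * ∫⁻ x in D, ENNReal.ofReal (x 0)) := by
          gcongr
      _ = volume D ^ n * (2 * (∫⁻ x in D, ENNReal.ofReal (x 0)) * (∫⁻ t, A D t ^ 2)) := by ring
      _ ≤ volume D ^ n * volume D ^ 3 := by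
          gcongr
          exact Core.lin1_D h
      _ = volume D ^ (n + 1 + 2) := by rw [← pow_add]

theorem second {n : ℕ} {D : Set (Fin (n + 1) → ℝ)} (h : AB D) :
    ((n : ℝ≥0∞) + 3) * (∫⁻ x in D, ENNReal.ofReal (x 0) ^ 2) * volume D ≤
      2 * ((n : ℝ≥0∞) + 2) * (∫⁻ x in D, ENNReal.ofReal (x 0)) ^ 2 := by
  have h1 := lin2 (N := (n : ℝ≥0∞) + 1) (a := A D) (f := F D) (by positivity) (by simp)
    (A_meas h) (fun t => rfl) (fun t ht => A_neg h ht) (by rw [A_int h]; exact Core.vol_fin h)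
    (by rw [← mom2_int h]; exact Core.mom_fin h 2) (fun x y hx hxy => sec_pn h hx hxy)
  rw [A_int h, ← mom_int h, ← mom2_int h] at h1
  have e1 : (n : ℝ≥0∞) + 1 + 2 = (n : ℝ≥0∞) + 3 := by
    rw [add_assoc]
    norm_num
  have e2 : (n : ℝ≥0∞) + 1 + 1 = (n : ℝ≥0∞) + 2 := by
    rw [add_assoc]
    norm_num
  rw [e1, e2] at h1
  exact h1

end Vale.Agent.P254
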