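import Mathlib

/-!
P254: definitions.  Convex bodies in `ℝ^n = Fin n → ℝ` with Lebesgue measure.
-/

namespace Vale.Agent.P254

open MeasureTheory
open scoped ENNReal

/-- the centroid `b_K` -/
noncomputable def centroid {n : ℕ} (K : Set (Fin n → ℝ)) (i : Fin n) : ℝ :=
  (∫ x in K, x i) / volume.real K

/-- the covariance matrix `Σ_K` -/
noncomputable def cov {n : ℕ} (K : Set (Fin n → ℝ)) : Matrix (Fin n) (Fin n) ℝ :=
  fun i j => (∫ x in K, (x i - centroid K i) * (x j - centroid K j)) / volume.real K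

/-- the isotropic constant `L_K = (det Σ_K / |K|^2)^(1/(2n))` -/
noncomputable def isoConst {n : ℕ} (K : Set (Fin n → ℝ)) : ℝ :=
  ((cov K).det / volume.real K ^ 2) ^ (1 / (2 * (n : ℝ)))

/-- the standard `n`-simplex -/
def simplex (n : ℕ) : Set (Fin n → ℝ) := {x | (∀ i, 0 ≤ x i) ∧ ∑ i, x i ≤ 1}

/-- the part in the positive orthant -/
def posPart {n : ℕ} (K : Set (Fin n → ℝ)) : Set (Fin n → ℝ) := K ∩ {x | ∀ i, 0 ≤ x i}

/-- compact, convex, down-closed, permutation invariant subsets of the positive orthant -/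
structure AB {n : ℕ} (D : Set (Fin n → ℝ)) : Prop where
  compact : IsCompact D
  conv : Convex ℝ D
  nonneg : ∀ x ∈ D, ∀ i, 0 ≤ x i
  down : ∀ x ∈ D, ∀ y : Fin n → ℝ, (∀ i, 0 ≤ y i) → (∀ i, y i ≤ x i) → y ∈ D
  symm : ∀ x ∈ D, ∀ π : Equiv.Perm (Fin n), (x ∘ π) ∈ D

/-- the section at height `t` of the first coordinate -/
def sec {n : ℕ} (D : Set (Fin (n + 1) → ℝ)) (t : ℝ) : Set (Fin n → ℝ) :=
  {y | (Fin.cons t y : Fin (n + 1) → ℝ) ∈ D}

/-- the volume of the section at height `t` -/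
noncomputable def A {n : ℕ} (D : Set (Fin (n + 1) → ℝ)) (t : ℝ) : ℝ≥0∞ := volume (sec D t)

/-- the volume beyond height `t` -/
noncomputable def F {n : ℕ} (D : Set (Fin (n + 1) → ℝ)) (t : ℝ) : ℝ≥0∞ :=
  ∫⁻ s in Set.Ioi t, A D s

end Vale.Agent.P254
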