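import Vale.Agent.P254.Defs

/-!
P254: every n-simplex is the image of the standard one under an invertible affine map.
-/

open MeasureTheory

namespace Vale.Agent.P254

/-- an `n`-simplex in `ℝ^n`: the convex hull of `n + 1` affinely independent points -/
def IsSimplex {n : ℕ} (S : Set (Fin n → ℝ)) : Prop :=
  ∃ p : Fin (n + 1) → (Fin n → ℝ), AffineIndependent ℝ p ∧ S = convexHull ℝ (Set.range p)

namespace SI

variable {n : ℕ}

/-- the vertices of the standard simplex -/
noncomputable def q (n : ℕ) : Fin (n + 1) → (Fin n → ℝ) :=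
  Fin.cons 0 (fun i => Pi.single i 1)

theorem simplex_eq (n : ℕ) : simplex n = convexHull ℝ (Set.range (q n)) := by
  apply Set.Subset.antisymm
  · rintro x ⟨h0, h1⟩
    have hx : x = ∑ i, (Fin.cons (1 - ∑ i, x i) x : Fin (n + 1) → ℝ) i • q n i := by
      rw [Fin.sum_univ_succ]
      simp only [Fin.cons_zero, Fin.cons_succ, q, smul_zero, zero_add]
      funext j
      simp [Finset.sum_apply, Pi.single_apply]
    rw [hx]
    refine (convex_convexHull ℝ _).sum_mem ?_ ?_ ?_
    · intro i _
      refine Fin.cases ?_ (fun j => ?_) i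
      · simpa using h1
      · simpa using h0 j
    · rw [Fin.sum_univ_succ]
      simp
    · intro i _
      exact subset_convexHull ℝ _ (Set.mem_range_self i)
  · refine convexHull_min ?_ ?_
    · rintro _ ⟨i, rfl⟩
      refine Fin.cases ?_ (fun j => ?_) i
      · constructor
        · intro i; simp [q]
        · simp [q]
      · constructor
        · intro i
          simp only [q, Fin.cons_succ, Pi.single_apply]
          split_ifs <;> norm_num
        · simp [q]
    · intro x hx y hy a b ha hb hab
      refine ⟨fun i => ?_, ?_⟩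
      · have := mul_nonneg ha (hx.1 i)
        have := mul_nonneg hb (hy.1 i)
        simp only [Pi.add_apply, Pi.smul_apply, smul_eq_mul]
        linarith
      · simp only [Pi.add_apply, Pi.smul_apply, smul_eq_mul, Finset.sum_add_distrib,
          ← Finset.mul_sum]
        nlinarith [hx.2, hy.2, mul_le_mul_of_nonneg_left hx.2 ha, mul_le_mul_of_nonneg_left hy.2 hb]

end SI

theorem simplex_compact (n : ℕ) : IsCompact (simplex n) := by
  rw [SI.simplex_eq]
  exact Set.Finite.isCompact_convexHull (𝕜 := ℝ) (Set.finite_range _)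

open SI in
theorem simplex_image {n : ℕ} {S : Set (Fin n → ℝ)} (hS : IsSimplex S) :
    ∃ T : (Fin n → ℝ) ≃ᵃ[ℝ] (Fin n → ℝ), S = T '' simplex n := by
  obtain ⟨p, hp, rfl⟩ := hS
  have hli : LinearIndependent ℝ (fun i : Fin n => p i.succ - p 0) := by
    have h := (affineIndependent_iff_linearIndependent_vsub ℝ p 0).1 hp
    have h2 := h.comp (fun i : Fin n => (⟨i.succ, Fin.succ_ne_zero i⟩ : {x // x ≠ (0 : Fin (n + 1))}))
      (fun i j hij => by simpa using hij)
    simpa [Function.comp_def, vsub_eq_sub] using h2
  let b : Module.Basis (Fin n) ℝ (Fin n → ℝ) :=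
    basisOfLinearIndependentOfCardEqFinrank' _ hli (by simp)
  have hb : ∀ i, b i = p i.succ - p 0 := by
    intro i
    simp [b]
  refine ⟨(b.equivFun.symm.toAffineEquiv).trans (AffineEquiv.constVAdd ℝ (Fin n → ℝ) (p 0)), ?_⟩
  rw [simplex_eq]
  have h := AffineMap.image_convexHull
    (((b.equivFun.symm.toAffineEquiv).trans (AffineEquiv.constVAdd ℝ (Fin n → ℝ) (p 0))).toAffineMap)
    (Set.range (q n))
  rw [AffineEquiv.coe_toAffineMap] at h
  rw [h]
  congr 1
  rw [← Set.range_comp]
  congr 1
  funext i
  refine Fin.cases ?_ (fun j => ?_) i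
  · simp [q]
  · simp only [Function.comp, q, Fin.cons_succ, AffineEquiv.trans_apply,
      LinearEquiv.coe_toAffineEquiv, AffineEquiv.constVAdd_apply, vadd_eq_add]
    rw [Module.Basis.equivFun_symm_apply]
    simp [Pi.single_apply, hb]

end Vale.Agent.P254
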