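import Vale.Agent.P254.Affine
import Vale.Agent.P254.SimplexImage

/-!
P254: passage from the standard positions to affine images.
-/

open MeasureTheory

namespace Vale.Agent.P254

theorem vol_ne_of_interior {n : ℕ} {K : Set (Fin n → ℝ)} (hc : IsCompact K)
    (h0 : (interior K).Nonempty) : volume.real K ≠ 0 := by
  have h1 : 0 < volume (interior K) := isOpen_interior.measure_pos volume h0
  have h2 : volume K ≠ 0 := (lt_of_lt_of_le h1 (measure_mono interior_subset)).ne'
  exact (ENNReal.toReal_pos h2 hc.measure_lt_top.ne).ne'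

/-- a strict bound against the standard simplex holds for all affine images of `K` and all
simplices -/
theorem ext_affine {n : ℕ} {K : Set (Fin n → ℝ)} (hc : IsCompact K)
    (h0 : (interior K).Nonempty) (hs : volume.real (simplex n) ≠ 0)
    (hlt : isoConst K < isoConst (simplex n)) (T : (Fin n → ℝ) ≃ᵃ[ℝ] (Fin n → ℝ))
    {S : Set (Fin n → ℝ)} (hS : IsSimplex S) : isoConst (T '' K) < isoConst S := by
  rw [isoConst_affine hc (vol_ne_of_interior hc h0) T]
  obtain ⟨T', rfl⟩ := simplex_image hS
  rw [isoConst_affine (simplex_compact n) hs T']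
  exact hlt

theorem sq_affine {n : ℕ} {K : Set (Fin n → ℝ)} (hc : IsCompact K)
    (h0 : (interior K).Nonempty) {c : ℝ} (h : isoConst K ^ 2 ≤ c)
    (T : (Fin n → ℝ) ≃ᵃ[ℝ] (Fin n → ℝ)) : isoConst (T '' K) ^ 2 ≤ c := by
  rwa [isoConst_affine hc (vol_ne_of_interior hc h0) T]

end Vale.Agent.P254
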