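import Vale.Agent.P254.Defs

/-!
P254, row Q1: two one-dimensional inequalities of Chebyshev type (helper19).
-/

namespace Vale.Agent.P254

open MeasureTheory
open scoped ENNReal

namespace Lin

theorem red {g : ℝ → ℝ≥0∞} (h : ∀ t < 0, g t = 0) : ∫⁻ t, g t = ∫⁻ t in Set.Ici 0, g t := by
  rw [← lintegral_add_compl g (measurableSet_Ici (a := (0 : ℝ)))]
  have h2 : ∫⁻ t in (Set.Ici (0 : ℝ))ᶜ, g t = 0 := by
    rw [setLIntegral_congr_fun (g := fun _ => 0) measurableSet_Ici.compl]
    · simp
    · intro x hx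
      simp only [Set.mem_compl_iff, Set.mem_Ici, not_le] at hx
      exact h x hx
  rw [h2, add_zero]

theorem anti {a f : ℝ → ℝ≥0∞} (hf : ∀ t, f t = ∫⁻ s in Set.Ioi t, a s) : Antitone f := by
  intro x y hxy
  rw [hf, hf]
  exact lintegral_mono_set (Set.Ioi_subset_Ioi hxy)

/-- Tonelli for the tail integral -/
theorem ton {a f g : ℝ → ℝ≥0∞} (hm : Measurable a) (hg : Measurable g)
    (hf : ∀ t, f t = ∫⁻ s in Set.Ioi t, a s) :
    ∫⁻ x in Set.Ici 0, g x * f x = ∫⁻ s, (∫⁻ x in Set.Ico 0 s, g x) * a s := by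
  have h1 : ∀ x, g x * f x = ∫⁻ s, g x * (Set.Ioi x).indicator a s := by
    intro x
    rw [lintegral_const_mul _ (hm.indicator measurableSet_Ioi),
      lintegral_indicator measurableSet_Ioi, hf]
  simp_rw [h1]
  rw [← lintegral_indicator measurableSet_Ici]
  have h2 : (fun x => (Set.Ici (0 : ℝ)).indicator
      (fun x => ∫⁻ s, g x * (Set.Ioi x).indicator a s) x) =
      fun x => ∫⁻ s, (Set.Ici (0 : ℝ)).indicator g x * (Set.Ioi x).indicator a s := by
    funext x
    by_cases hx : x ∈ Set.Ici (0 : ℝ)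
    · simp [Set.indicator_of_mem hx]
    · simp [Set.indicator_of_notMem hx]
  rw [h2, lintegral_lintegral_swap]
  · refine lintegral_congr fun s => ?_
    have h3 : ∀ x, (Set.Ici (0 : ℝ)).indicator g x * (Set.Ioi x).indicator a s =
        (Set.Ico 0 s).indicator g x * a s := by
      intro x
      by_cases hx : 0 ≤ x
      · by_cases hs : x < s
        · rw [Set.indicator_of_mem (show x ∈ Set.Ici (0 : ℝ) from hx),
            Set.indicator_of_mem (show s ∈ Set.Ioi x from hs),
            Set.indicator_of_mem (show x ∈ Set.Ico 0 s from ⟨hx, hs⟩)]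
        · rw [Set.indicator_of_notMem (show s ∉ Set.Ioi x from hs),
            Set.indicator_of_notMem (show x ∉ Set.Ico 0 s from fun h => hs h.2)]
          simp
      · rw [Set.indicator_of_notMem (show x ∉ Set.Ici (0 : ℝ) from hx),
            Set.indicator_of_notMem (show x ∉ Set.Ico 0 s from fun h => hx h.1)]
        simp
    simp_rw [h3]
    rw [lintegral_mul_const _ (hg.indicator measurableSet_Ico),
      lintegral_indicator measurableSet_Ico]
  · refine Measurable.aemeasurable ?_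
    have h4 : (Function.uncurry fun (x s : ℝ) =>
        (Set.Ici (0 : ℝ)).indicator g x * (Set.Ioi x).indicator a s) =
        fun p : ℝ × ℝ => (Set.Ici (0 : ℝ)).indicator g p.1 *
          ({p : ℝ × ℝ | p.1 < p.2}.indicator (fun p => a p.2) p) := by
      funext p
      obtain ⟨x, s⟩ := p
      simp only [Function.uncurry]
      by_cases hs : x < s
      · rw [Set.indicator_of_mem (show s ∈ Set.Ioi x from hs),
          Set.indicator_of_mem (show (x, s) ∈ {p : ℝ × ℝ | p.1 < p.2} from hs)]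
      · rw [Set.indicator_of_notMem (show s ∉ Set.Ioi x from hs),
          Set.indicator_of_notMem (show (x, s) ∉ {p : ℝ × ℝ | p.1 < p.2} from hs)]
    rw [h4]
    exact ((hg.indicator measurableSet_Ici).comp measurable_fst).mul
      ((hm.comp measurable_snd).indicator (measurableSet_lt measurable_fst measurable_snd))

theorem int1 {a f : ℝ → ℝ≥0∞} (hm : Measurable a)
    (hf : ∀ t, f t = ∫⁻ s in Set.Ioi t, a s) :
    ∫⁻ x in Set.Ici 0, f x = ∫⁻ s, ENNReal.ofReal s * a s := by
  have h := ton (g := fun _ => 1) hm measurable_const hf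
  simp only [one_mul] at h
  rw [h]
  refine lintegral_congr fun s => ?_
  simp [Real.volume_Ico]

theorem int2 {a f : ℝ → ℝ≥0∞} (hm : Measurable a)
    (hf : ∀ t, f t = ∫⁻ s in Set.Ioi t, a s) (h0 : ∀ t < 0, a t = 0) :
    2 * ∫⁻ x in Set.Ici 0, ENNReal.ofReal x * f x = ∫⁻ s, ENNReal.ofReal s ^ 2 * a s := by
  have h := ton (g := fun x => ENNReal.ofReal x) hm ENNReal.measurable_ofReal hf
  rw [h, ← lintegral_const_mul' _ _ (by simp)]
  refine lintegral_congr fun s => ?_
  by_cases hs : s < 0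
  · simp [h0 s hs]
  · push Not at hs
    have h2 : ∫⁻ x in Set.Ico 0 s, ENNReal.ofReal x = ENNReal.ofReal (s ^ 2 / 2) := by
      rw [← ofReal_integral_eq_lintegral_ofReal]
      · congr 1
        rw [integral_Ico_eq_integral_Ioc, ← intervalIntegral.integral_of_le hs, integral_id]
        ring
      · exact (continuous_id.integrableOn_Icc (a := (0 : ℝ)) (b := s)).mono_set
          Set.Ico_subset_Icc_self
      · refine (ae_restrict_iff' measurableSet_Ico).2 (Filter.Eventually.of_forall ?_)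
        intro x hx
        exact hx.1
    rw [h2, ← mul_assoc]
    congr 1
    rw [show (2 : ℝ≥0∞) = ENNReal.ofReal 2 by simp, ← ENNReal.ofReal_mul (by norm_num),
      ← ENNReal.ofReal_pow hs]
    congr 1
    ring

theorem int3 {a f : ℝ → ℝ≥0∞} (hm : Measurable a)
    (hf : ∀ t, f t = ∫⁻ s in Set.Ioi t, a s) (h0 : ∀ t < 0, a t = 0) :
    2 * ∫⁻ x in Set.Ici 0, a x * f x = (∫⁻ t, a t) ^ 2 := by
  have h := ton (g := a) hm hm hf
  have hV : ∀ s, ∫⁻ t, a t = (∫⁻ x in Set.Ico 0 s, a x) + f s := by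
    intro s
    have e1 : ∫⁻ t, a t = (∫⁻ t in Set.Iio s, a t) + ∫⁻ t in Set.Ici s, a t := by
      rw [← lintegral_add_compl a (measurableSet_Iio (a := s)), Set.compl_Iio]
    have e2 : ∫⁻ t in Set.Ici s, a t = f s := by
      rw [hf, restrict_Ioi_eq_restrict_Ici]
    have e3 : ∫⁻ t in Set.Iio s, a t = ∫⁻ x in Set.Ico 0 s, a x := by
      rw [← lintegral_indicator measurableSet_Iio, ← lintegral_indicator measurableSet_Ico]
      refine lintegral_congr fun t => ?_
      by_cases ht : t < 0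
      · simp [Set.indicator, h0 t ht]
      · push Not at ht
        simp [Set.indicator, ht]
    rw [e1, e2, e3]
  have h1 : ∫⁻ x in Set.Ici 0, a x * f x = ∫⁻ x, f x * a x := by
    rw [red (g := fun x => f x * a x)]
    · refine lintegral_congr fun x => mul_comm _ _
    · intro t ht
      simp [h0 t ht]
  have hfm : Measurable f := (anti hf).measurable
  have h5 : (∫⁻ t, a t) ^ 2 = ∫⁻ s, (∫⁻ t, a t) * a s := by
    rw [lintegral_const_mul _ hm, sq]
  rw [h5]
  have h6 : ∫⁻ s, (∫⁻ t, a t) * a s =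
      ∫⁻ s, ((∫⁻ x in Set.Ico 0 s, a x) * a s + f s * a s) := by
    refine lintegral_congr fun s => ?_
    rw [hV s, add_mul]
  have h7 := lintegral_add_right (μ := volume) (fun s => (∫⁻ x in Set.Ico 0 s, a x) * a s)
    (hfm.mul hm)
  simp only [Pi.mul_apply] at h7
  rw [h6, h7, ← h, h1, two_mul]

end Lin

open Lin

/-- [Q1] Lin.lean: Chebyshev, first form (pure one-dimensional lemma) -/
theorem lin1 {a f : ℝ → ℝ≥0∞} (hm : Measurable a) (hf : ∀ t, f t = ∫⁻ s in Set.Ioi t, a s)
    (h0 : ∀ t < 0, a t = 0) (hanti : ∀ x y, 0 ≤ x → x ≤ y → a y ≤ a x)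
    (hfin : ∫⁻ t, a t ≠ ∞) (hP : ∀ x y, 0 ≤ x → x ≤ y → f y * a x ≤ f x * a y) :
    2 * (∫⁻ t, ENNReal.ofReal t * a t) * (∫⁻ t, a t ^ 2) ≤ (∫⁻ t, a t) ^ 3 := by
  have hfm : Measurable f := (anti hf).measurable
  have key : ∀ x y, 0 ≤ x → x ≤ y →
      f x * a y ^ 2 + f y * a x ^ 2 ≤ (a x * f x) * a y + (a y * f y) * a x := by
    intro x y hx hxy
    obtain ⟨c, hc⟩ := exists_add_of_le (hanti x y hx hxy)
    obtain ⟨w, hw⟩ := exists_add_of_le (hP x y hx hxy)
    calc f x * a y ^ 2 + f y * a x ^ 2 = a y * (f x * a y) + a x * (f y * a x) := by ring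
      _ = a y * (f y * a x) + a y * w + a y * (f y * a x) + c * (f y * a x) := by
        rw [hw]
        nth_rewrite 2 [hc]
        ring
      _ ≤ a y * (f y * a x) + a y * w + a y * (f y * a x) + c * (f y * a x) + c * w :=
        le_self_add
      _ = a y * (f y * a x) + (a y + c) * (f y * a x + w) := by ring
      _ = a y * (f y * a x) + a x * (f x * a y) := by rw [← hc, ← hw]
      _ = (a x * f x) * a y + (a y * f y) * a x := by ring
  have key2 : ∀ x ∈ Set.Ici (0 : ℝ), ∀ y ∈ Set.Ici (0 : ℝ),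
      f x * a y ^ 2 + f y * a x ^ 2 ≤ (a x * f x) * a y + (a y * f y) * a x := by
    intro x hx y hy
    rcases le_total x y with h | h
    · exact key x y hx h
    · have := key y x hy h
      rw [add_comm (f y * _), add_comm (a y * f y * _)] at this
      exact this
  have h1 : ∀ x ∈ Set.Ici (0 : ℝ),
      f x * (∫⁻ y in Set.Ici 0, a y ^ 2) + (∫⁻ y in Set.Ici 0, f y) * a x ^ 2 ≤
        (a x * f x) * (∫⁻ y in Set.Ici 0, a y) + (∫⁻ y in Set.Ici 0, a y * f y) * a x := by
    intro x hx
    have e := setLIntegral_mono' (μ := volume) measurableSet_Ici (key2 x hx)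
    rw [lintegral_add_left (by fun_prop), lintegral_add_left (by fun_prop),
      lintegral_const_mul _ (by fun_prop), lintegral_const_mul _ (by fun_prop),
      lintegral_mul_const _ (by fun_prop), lintegral_mul_const _ (by fun_prop)] at e
    exact e
  have h2 := setLIntegral_mono' (μ := volume) measurableSet_Ici h1
  rw [lintegral_add_left (by fun_prop), lintegral_add_left (by fun_prop),
    lintegral_mul_const _ (by fun_prop), lintegral_mul_const _ (by fun_prop),
    lintegral_const_mul _ (by fun_prop), lintegral_const_mul _ (by fun_prop)] at h2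
  have r1 : ∫⁻ y in Set.Ici 0, a y = ∫⁻ y, a y := (red h0).symm
  have r2 : ∫⁻ y in Set.Ici 0, a y ^ 2 = ∫⁻ y, a y ^ 2 :=
    (red (g := fun y => a y ^ 2) (fun t ht => by simp [h0 t ht])).symm
  rw [r1, r2, int1 hm hf] at h2
  calc 2 * (∫⁻ t, ENNReal.ofReal t * a t) * (∫⁻ t, a t ^ 2)
      = (∫⁻ t, ENNReal.ofReal t * a t) * (∫⁻ t, a t ^ 2) +
        (∫⁻ t, ENNReal.ofReal t * a t) * (∫⁻ t, a t ^ 2) := by ring
    _ ≤ (∫⁻ x in Set.Ici 0, a x * f x) * (∫⁻ t, a t) +
        (∫⁻ x in Set.Ici 0, a x * f x) * (∫⁻ t, a t) := h2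
    _ = (2 * ∫⁻ x in Set.Ici 0, a x * f x) * (∫⁻ t, a t) := by ring
    _ = (∫⁻ t, a t) ^ 3 := by rw [int3 hm hf h0]; ring

/-- [Q1] Lin.lean: Chebyshev, second form (pure one-dimensional lemma) -/
theorem lin2 {N : ℝ≥0∞} (hN0 : N ≠ 0) (hN : N ≠ ∞) {a f : ℝ → ℝ≥0∞} (hm : Measurable a)
    (hf : ∀ t, f t = ∫⁻ s in Set.Ioi t, a s) (h0 : ∀ t < 0, a t = 0)
    (hfin : ∫⁻ t, a t ≠ ∞) (hfin2 : ∫⁻ t, ENNReal.ofReal t ^ 2 * a t ≠ ∞)
    (hP : ∀ x y, 0 ≤ x → x ≤ y →
      ENNReal.ofReal (y - x) * (a x * a y) + N * (f y * a x) ≤ N * (f x * a y)) :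
    (N + 2) * (∫⁻ t, ENNReal.ofReal t ^ 2 * a t) * (∫⁻ t, a t) ≤
      2 * (N + 1) * (∫⁻ t, ENNReal.ofReal t * a t) ^ 2 := by
  have hfm : Measurable f := (anti hf).measurable
  have hom : Measurable ENNReal.ofReal := ENNReal.measurable_ofReal
  set o : ℝ → ℝ≥0∞ := ENNReal.ofReal with ho
  have key : ∀ x y, 0 ≤ x → x ≤ y →
      ((N * (o x * f x)) * a y + (o x ^ 2 * a x) * a y) +
        (a x * (N * (o y * f y)) + a x * (o y ^ 2 * a y)) ≤
      ((N * f x) * (o y * a y) + (N * (o x * a x)) * f y) +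
        (2 * (o x * a x)) * (o y * a y) := by
    intro x y hx hxy
    have e := mul_le_mul_right (hP x y hx hxy) (o (y - x))
    have hy : o y = o x + o (y - x) := by
      rw [ho, ← ENNReal.ofReal_add hx (sub_nonneg.2 hxy)]
      congr 1
      ring
    generalize o (y - x) = d at e hy
    rw [hy]
    generalize o x = X at *
    calc ((N * (X * f x)) * a y + (X ^ 2 * a x) * a y) +
        (a x * (N * ((X + d) * f y)) + a x * ((X + d) ^ 2 * a y))
        = d * (d * (a x * a y) + N * (f y * a x)) +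
          (N * X * (f x * a y) + N * X * (f y * a x) + 2 * X * (X + d) * (a x * a y)) := by ring
      _ ≤ d * (N * (f x * a y)) +
          (N * X * (f x * a y) + N * X * (f y * a x) + 2 * X * (X + d) * (a x * a y)) := by
        gcongr
      _ = ((N * f x) * ((X + d) * a y) + (N * (X * a x)) * f y) +
        (2 * (X * a x)) * ((X + d) * a y) := by ring
  have key2 : ∀ x ∈ Set.Ici (0 : ℝ), ∀ y ∈ Set.Ici (0 : ℝ),
      ((N * (o x * f x)) * a y + (o x ^ 2 * a x) * a y) +
        (a x * (N * (o y * f y)) + a x * (o y ^ 2 * a y)) ≤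
      ((N * f x) * (o y * a y) + (N * (o x * a x)) * f y) +
        (2 * (o x * a x)) * (o y * a y) := by
    intro x hx y hy
    rcases le_total x y with h | h
    · exact key x y hx h
    · refine le_trans (le_of_eq ?_) (le_trans (key y x hy h) (le_of_eq ?_))
      · ring
      · ring
  have h1 : ∀ x ∈ Set.Ici (0 : ℝ),
      ((N * (o x * f x)) * (∫⁻ y in Set.Ici 0, a y) +
        (o x ^ 2 * a x) * (∫⁻ y in Set.Ici 0, a y)) +
        (a x * (N * ∫⁻ y in Set.Ici 0, o y * f y) +
          a x * (∫⁻ y in Set.Ici 0, o y ^ 2 * a y)) ≤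
      ((N * f x) * (∫⁻ y in Set.Ici 0, o y * a y) +
        (N * (o x * a x)) * (∫⁻ y in Set.Ici 0, f y)) +
        (2 * (o x * a x)) * (∫⁻ y in Set.Ici 0, o y * a y) := by
    intro x hx
    have e := setLIntegral_mono' (μ := volume) measurableSet_Ici (key2 x hx)
    rw [lintegral_add_left (by fun_prop), lintegral_add_left (by fun_prop),
      lintegral_add_left (by fun_prop), lintegral_add_left (by fun_prop),
      lintegral_add_left (by fun_prop),
      lintegral_const_mul _ (by fun_prop), lintegral_const_mul _ (by fun_prop),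
      lintegral_const_mul _ (by fun_prop), lintegral_const_mul _ (by fun_prop),
      lintegral_const_mul _ (by fun_prop), lintegral_const_mul _ (by fun_prop),
      lintegral_const_mul _ (by fun_prop), lintegral_const_mul _ (by fun_prop)] at e
    exact e
  have h2 := setLIntegral_mono' (μ := volume) measurableSet_Ici h1
  rw [lintegral_add_left (by fun_prop), lintegral_add_left (by fun_prop),
    lintegral_add_left (by fun_prop), lintegral_add_left (by fun_prop),
    lintegral_add_left (by fun_prop),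
    lintegral_mul_const _ (by fun_prop), lintegral_mul_const _ (by fun_prop),
    lintegral_mul_const _ (by fun_prop), lintegral_mul_const _ (by fun_prop),
    lintegral_mul_const _ (by fun_prop), lintegral_mul_const _ (by fun_prop),
    lintegral_mul_const _ (by fun_prop),
    lintegral_const_mul _ (by fun_prop), lintegral_const_mul _ (by fun_prop),
    lintegral_const_mul _ (by fun_prop), lintegral_const_mul _ (by fun_prop)] at h2
  have r1 : ∫⁻ y in Set.Ici 0, a y = ∫⁻ y, a y := (red h0).symm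
  have r2 : ∫⁻ y in Set.Ici 0, o y ^ 2 * a y = ∫⁻ y, o y ^ 2 * a y :=
    (red (g := fun y => o y ^ 2 * a y) (fun t ht => by simp [h0 t ht])).symm
  have r3 : ∫⁻ y in Set.Ici 0, o y * a y = ∫⁻ y, o y * a y :=
    (red (g := fun y => o y * a y) (fun t ht => by simp [h0 t ht])).symm
  have r4 := int2 hm hf h0
  rw [← ho] at r4
  have r5 := int1 hm hf
  rw [← ho] at r5
  rw [r1, r2, r3, r5] at h2
  generalize ∫⁻ y in Set.Ici 0, o y * f y = P at h2 r4
  generalize ∫⁻ y, o y ^ 2 * a y = S at h2 r4 ⊢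
  generalize ∫⁻ y, o y * a y = T at h2 ⊢
  generalize ∫⁻ y, a y = V at h2 ⊢
  calc (N + 2) * S * V = N * S * V + 2 * S * V := by ring
    _ = (N * P * V + S * V) + (V * (N * P) + V * S) := by rw [← r4]; ring
    _ ≤ (N * T * T + N * T * T) + 2 * T * T := h2
    _ = 2 * (N + 1) * T ^ 2 := by ring

end Vale.Agent.P254
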