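import Vale.Agent.P254.NSec
import Vale.Agent.P230.BMAdd

/-!
P254, row Q2: the sections of a convex down-closed body (Brunn-Minkowski).
-/

namespace Vale.Agent.P254.NS

open MeasureTheory Set
open scoped ENNReal

namespace PN

theorem cons_eq {n : ℕ} (p q : ℝ) (u v : Fin n → ℝ) (c d : ℝ) :
    c • (Fin.cons p u : Fin (n + 1) → ℝ) + d • (Fin.cons q v : Fin (n + 1) → ℝ) =
      Fin.cons (c * p + d * q) (c • u + d • v) := by
  funext i
  refine Fin.cases ?_ (fun j => ?_) i
  · simp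
  · simp

theorem sec_closed {n : ℕ} {D : Set (Fin (n + 1) → ℝ)} (h : AC D) (t : ℝ) :
    IsClosed (sec D t) := by
  have hc : Continuous (fun y : Fin n → ℝ => (Fin.cons t y : Fin (n + 1) → ℝ)) := by
    refine continuous_pi fun i => ?_
    refine Fin.cases ?_ (fun j => ?_) i
    · simpa using continuous_const
    · simpa using continuous_apply j
  exact h.compact.isClosed.preimage hc

theorem sec_compact {n : ℕ} {D : Set (Fin (n + 1) → ℝ)} (h : AC D) (t : ℝ) :
    IsCompact (sec D t) := by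
  refine Metric.isCompact_of_isClosed_isBounded (sec_closed h t) ?_
  obtain ⟨R, hR⟩ := h.compact.isBounded.exists_norm_le
  refine (Metric.isBounded_closedBall (x := (0 : Fin n → ℝ)) (r := R)).subset fun y hy => ?_
  rw [mem_closedBall_zero_iff]
  have h1 := hR _ hy
  refine (pi_norm_le_iff_of_nonneg ((norm_nonneg _).trans h1)).2 fun i => ?_
  have h2 := (norm_le_pi_norm (Fin.cons t y : Fin (n + 1) → ℝ) i.succ).trans h1
  simpa using h2

theorem sec_sub {n : ℕ} {D : Set (Fin (n + 1) → ℝ)} (h : AC D) {x y : ℝ} (hx : 0 ≤ x)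
    (hxy : x ≤ y) : sec D y ⊆ sec D x := by
  intro u hu
  have hn := h.nonneg _ hu
  refine h.down _ hu _ (fun i => ?_) (fun i => ?_)
  · refine Fin.cases ?_ (fun j => ?_) i
    · simpa using hx
    · simpa using hn j.succ
  · refine Fin.cases ?_ (fun j => ?_) i
    · simpa using hxy
    · simp

theorem anti {n : ℕ} {D : Set (Fin (n + 1) → ℝ)} (h : AC D) {x y : ℝ} (hx : 0 ≤ x)
    (hxy : x ≤ y) : A D y ≤ A D x := measure_mono (sec_sub h hx hxy)

theorem A_fin {n : ℕ} {D : Set (Fin (n + 1) → ℝ)} (h : AC D) (t : ℝ) : A D t ≠ ∞ :=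
  (sec_compact h t).measure_lt_top.ne

theorem bm {n : ℕ} (hn : 1 ≤ n) {D : Set (Fin (n + 1) → ℝ)} (h : AC D) {x z t : ℝ}
    (hx0 : A D x ≠ 0) (hz0 : A D z ≠ 0) (ht0 : 0 < t) (ht1 : t < 1) :
    (1 - t) * (A D x).toReal ^ (1 / (n : ℝ)) + t * (A D z).toReal ^ (1 / (n : ℝ)) ≤
      (A D ((1 - t) * x + t * z)).toReal ^ (1 / (n : ℝ)) := by
  refine P230.bm_add hn (sec_compact h x) (sec_compact h z) (sec_compact h _) hx0 hz0 ht0 ht1 ?_
  intro u hu v hv
  have h1 := h.conv hu hv (by linarith : (0 : ℝ) ≤ 1 - t) ht0.le (by ring)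
  rw [cons_eq] at h1
  exact h1

theorem F_split {n : ℕ} (D : Set (Fin (n + 1) → ℝ)) {x y : ℝ} (hxy : x ≤ y) :
    F D x = (∫⁻ s in Ioc x y, A D s) + F D y := by
  unfold F
  rw [← Ioc_union_Ioi_eq_Ioi hxy, lintegral_union measurableSet_Ioi]
  exact disjoint_left.2 fun s hs hs' => absurd hs.2 (not_le.2 hs')

theorem F_zero {n : ℕ} {D : Set (Fin (n + 1) → ℝ)} (h : AC D) {y : ℝ} (hy : 0 ≤ y)
    (h0 : A D y = 0) : F D y = 0 := by
  unfold F
  refine le_antisymm ?_ zero_le
  calc ∫⁻ s in Ioi y, A D s ≤ ∫⁻ _ in Ioi y, 0 := by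
        refine setLIntegral_mono' measurableSet_Ioi fun s hs => ?_
        rw [← h0]
        exact anti h hy (le_of_lt hs)
    _ = 0 := by simp

/-- the case where the section volume is constant on `[x,y]` -/
theorem flat {n : ℕ} {D : Set (Fin (n + 1) → ℝ)} (h : AC D) {x y : ℝ} (hx : 0 ≤ x)
    (hxy : x ≤ y) (he : A D x = A D y) :
    ENNReal.ofReal (y - x) * (A D x * A D y) + ((n : ℝ≥0∞) + 1) * (F D y * A D x) ≤
      ((n : ℝ≥0∞) + 1) * (F D x * A D y) := by
  have h1 : ENNReal.ofReal (y - x) * A D y ≤ ∫⁻ s in Ioc x y, A D s := by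
    calc ENNReal.ofReal (y - x) * A D y = ∫⁻ _ in Ioc x y, A D y := by
          rw [setLIntegral_const, Real.volume_Ioc, mul_comm]
      _ ≤ ∫⁻ s in Ioc x y, A D s := by
          refine setLIntegral_mono' measurableSet_Ioc fun s hs => ?_
          exact anti h (hx.trans hs.1.le) hs.2
  rw [F_split D hxy, he]
  calc ENNReal.ofReal (y - x) * (A D y * A D y) + ((n : ℝ≥0∞) + 1) * (F D y * A D y)
      = 1 * ((ENNReal.ofReal (y - x) * A D y) * A D y) +
          ((n : ℝ≥0∞) + 1) * (F D y * A D y) := by ring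
    _ ≤ ((n : ℝ≥0∞) + 1) * ((∫⁻ s in Ioc x y, A D s) * A D y) +
          ((n : ℝ≥0∞) + 1) * (F D y * A D y) := by
        gcongr
        exact le_add_self
    _ = ((n : ℝ≥0∞) + 1) * (((∫⁻ s in Ioc x y, A D s) + F D y) * A D y) := by ring

theorem real_ineq {m : ℕ} {a b κ d f : ℝ} (hb : 0 < b) (hab : b < a) (hκ : 0 < κ)
    (hd : κ * d = a - b) (hf : f ≤ b ^ (m + 1) / (((m : ℝ) + 1) * κ)) :
    d * (a ^ m * b ^ m) + ((m : ℝ) + 1) * (f * a ^ m) ≤
      ((m : ℝ) + 1) * (((a ^ (m + 1) - b ^ (m + 1)) / (((m : ℝ) + 1) * κ) + f) * b ^ m) := by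
  have hm : (0 : ℝ) < (m : ℝ) + 1 := by positivity
  have h1 : b ^ m ≤ a ^ m := by gcongr
  have h2 : f * (a ^ m - b ^ m) ≤ b ^ (m + 1) / (((m : ℝ) + 1) * κ) * (a ^ m - b ^ m) :=
    mul_le_mul_of_nonneg_right hf (by linarith)
  have h3 : ((m : ℝ) + 1) * (f * (a ^ m - b ^ m)) ≤ b ^ (m + 1) / κ * (a ^ m - b ^ m) := by
    calc ((m : ℝ) + 1) * (f * (a ^ m - b ^ m))
        ≤ ((m : ℝ) + 1) * (b ^ (m + 1) / (((m : ℝ) + 1) * κ) * (a ^ m - b ^ m)) :=
          mul_le_mul_of_nonneg_left h2 hm.le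
      _ = b ^ (m + 1) / κ * (a ^ m - b ^ m) := by field_simp
  have h4 : d = (a - b) / κ := by rw [eq_div_iff hκ.ne', ← hd]; ring
  have h5 : ((m : ℝ) + 1) * ((a ^ (m + 1) - b ^ (m + 1)) / (((m : ℝ) + 1) * κ) * b ^ m) =
      (a ^ (m + 1) - b ^ (m + 1)) / κ * b ^ m := by field_simp
  have h6 : (a ^ (m + 1) - b ^ (m + 1)) / κ * b ^ m =
      (a - b) / κ * (a ^ m * b ^ m) + b ^ (m + 1) / κ * (a ^ m - b ^ m) := by
    field_simp
    ring
  rw [h4]
  calc (a - b) / κ * (a ^ m * b ^ m) + ((m : ℝ) + 1) * (f * a ^ m)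
      = (a - b) / κ * (a ^ m * b ^ m) + ((m : ℝ) + 1) * (f * (a ^ m - b ^ m)) +
        ((m : ℝ) + 1) * (f * b ^ m) := by ring
    _ ≤ (a - b) / κ * (a ^ m * b ^ m) + b ^ (m + 1) / κ * (a ^ m - b ^ m) +
        ((m : ℝ) + 1) * (f * b ^ m) := by linarith
    _ = ((m : ℝ) + 1) * ((a ^ (m + 1) - b ^ (m + 1)) / (((m : ℝ) + 1) * κ) * b ^ m) +
        ((m : ℝ) + 1) * (f * b ^ m) := by rw [h5, h6]
    _ = ((m : ℝ) + 1) * (((a ^ (m + 1) - b ^ (m + 1)) / (((m : ℝ) + 1) * κ) + f) * b ^ m) := by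
        ring

/-- `∫_p^q (c - κ (s - p))^m ds` -/
theorem int_lin {m : ℕ} {c κ p q : ℝ} (hκ : 0 < κ) (hpq : p ≤ q)
    (hc : 0 ≤ c - κ * (q - p)) :
    ∫⁻ s in Ioc p q, ENNReal.ofReal ((c - κ * (s - p)) ^ m) =
      ENNReal.ofReal ((c ^ (m + 1) - (c - κ * (q - p)) ^ (m + 1)) / (((m : ℝ) + 1) * κ)) := by
  have hm : (0 : ℝ) < (m : ℝ) + 1 := by positivity
  have hcont : Continuous fun s : ℝ => (c - κ * (s - p)) ^ m := by fun_prop
  rw [← ofReal_integral_eq_lintegral_ofReal]
  · congr 1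
    rw [← intervalIntegral.integral_of_le hpq]
    have hder : ∀ s ∈ uIcc p q, HasDerivAt
        (fun s : ℝ => -((c - κ * (s - p)) ^ (m + 1) / (((m : ℝ) + 1) * κ)))
        ((c - κ * (s - p)) ^ m) s := by
      intro s _
      have h1 : HasDerivAt (fun s : ℝ => c - κ * (s - p)) (-κ) s := by
        have := ((hasDerivAt_id s).sub_const p).const_mul κ
        simpa using this.const_sub c
      have h2 := ((h1.pow (m + 1)).div_const (((m : ℝ) + 1) * κ)).neg
      refine h2.congr_deriv ?_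
      simp only [Nat.cast_add, Nat.cast_one, Nat.add_sub_cancel]
      field_simp
    rw [intervalIntegral.integral_eq_sub_of_hasDerivAt hder (hcont.intervalIntegrable p q)]
    simp only [sub_self, mul_zero, sub_zero]
    ring
  · exact (hcont.integrableOn_Icc).mono_set Ioc_subset_Icc_self
  · refine (ae_restrict_iff' measurableSet_Ioc).2 (Filter.Eventually.of_forall fun s hs => ?_)
    have h1 : 0 ≤ c - κ * (s - p) := by
      have := mul_le_mul_of_nonneg_left (sub_le_sub_right hs.2 p) hκ.le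
      linarith
    exact pow_nonneg h1 m

end PN

open PN in
/-- [Q2] the sections of a convex down-closed body -/
theorem sec_pn {n : ℕ} {D : Set (Fin (n + 1) → ℝ)} (h : AC D) {x y : ℝ} (hx : 0 ≤ x)
    (hxy : x ≤ y) :
    ENNReal.ofReal (y - x) * (A D x * A D y) + ((n : ℝ≥0∞) + 1) * (F D y * A D x) ≤
      ((n : ℝ≥0∞) + 1) * (F D x * A D y) := by
  have hy : 0 ≤ y := hx.trans hxy
  rcases eq_or_ne (A D y) 0 with h0 | h0
  · rw [h0, F_zero h hy h0]; simp
  rcases hxy.eq_or_lt with rfl | hlt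
  · exact flat h hx le_rfl rfl
  have hAx0 : A D x ≠ 0 := fun h1 => h0 (le_antisymm (h1 ▸ anti h hx hxy) zero_le)
  rcases eq_or_ne (A D x) (A D y) with he | he
  · exact flat h hx hxy he
  rcases Nat.eq_zero_or_pos n with rfl | hn
  · exfalso
    apply he
    have hone : ∀ t, A D t ≠ 0 → A D t = 1 := by
      intro t ht
      have hne : (sec D t).Nonempty := by
        by_contra hc
        rw [not_nonempty_iff_eq_empty] at hc
        apply ht
        simp [A, hc]
      have hu : sec D t = univ := by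
        ext u
        obtain ⟨v, hv⟩ := hne
        simp only [mem_univ, iff_true]
        rwa [Subsingleton.elim u v]
      unfold A
      rw [hu]
      simp [Real.volume_eq_stieltjes_id, volume_pi]
    rw [hone x hAx0, hone y h0]
  -- the main case
  have hn0 : n ≠ 0 := by omega
  have hAx := A_fin h x
  have hAy := A_fin h y
  set a := (A D x).toReal ^ (1 / (n : ℝ)) with ha
  set b := (A D y).toReal ^ (1 / (n : ℝ)) with hb
  have hpx : 0 < (A D x).toReal := ENNReal.toReal_pos hAx0 hAx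
  have hpy : 0 < (A D y).toReal := ENNReal.toReal_pos h0 hAy
  have hb0 : 0 < b := Real.rpow_pos_of_pos hpy _
  have han : a ^ n = (A D x).toReal := by
    rw [ha, one_div]
    exact Real.rpow_inv_natCast_pow hpx.le hn0
  have hbn : b ^ n = (A D y).toReal := by
    rw [hb, one_div]
    exact Real.rpow_inv_natCast_pow hpy.le hn0
  have hAxa : A D x = ENNReal.ofReal (a ^ n) := by rw [han, ENNReal.ofReal_toReal hAx]
  have hAyb : A D y = ENNReal.ofReal (b ^ n) := by rw [hbn, ENNReal.ofReal_toReal hAy]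
  have hanti := anti h hx hxy
  have hlt2 : (A D y).toReal < (A D x).toReal := by
    rw [ENNReal.toReal_lt_toReal hAy hAx]
    exact lt_of_le_of_ne hanti (Ne.symm he)
  have hab : b < a := Real.rpow_lt_rpow hpy.le hlt2 (by positivity)
  have ha0 : 0 < a := hb0.trans hab
  have hyx : 0 < y - x := by linarith
  set κ := (a - b) / (y - x) with hκ
  have hκ0 : 0 < κ := div_pos (by linarith) hyx
  have hκd : κ * (y - x) = a - b := by rw [hκ]; field_simp
  -- lower bound on `(x, y]`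
  have hlow : ∀ s ∈ Ioc x y, ENNReal.ofReal ((a - κ * (s - x)) ^ n) ≤ A D s := by
    intro s hs
    rcases hs.2.eq_or_lt with rfl | hsy
    · rw [hκd, hAyb]
      refine le_of_eq ?_
      congr 2
      ring
    set t := (s - x) / (y - x) with ht
    have ht0 : 0 < t := div_pos (by linarith [hs.1]) hyx
    have ht1 : t < 1 := (div_lt_one hyx).2 (by linarith)
    have h1 := bm hn h hAx0 h0 ht0 ht1
    have h2 : (1 - t) * x + t * y = s := by
      rw [ht]; field_simp; ring
    rw [h2, ← ha, ← hb] at h1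
    have h3 : (1 - t) * a + t * b = a - κ * (s - x) := by
      rw [ht, hκ]; field_simp; ring
    rw [h3] at h1
    have h4 : 0 ≤ a - κ * (s - x) := by
      rw [← h3]
      have : 0 ≤ (1 - t) := by linarith
      positivity
    have h5 : (a - κ * (s - x)) ^ n ≤ (A D s).toReal := by
      calc (a - κ * (s - x)) ^ n ≤ ((A D s).toReal ^ (1 / (n : ℝ))) ^ n := by gcongr
        _ = (A D s).toReal := by
            rw [one_div]
            exact Real.rpow_inv_natCast_pow ENNReal.toReal_nonneg hn0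
    calc ENNReal.ofReal ((a - κ * (s - x)) ^ n) ≤ ENNReal.ofReal (A D s).toReal :=
          ENNReal.ofReal_le_ofReal h5
      _ = A D s := ENNReal.ofReal_toReal (A_fin h s)
  -- upper bound beyond `y`
  have hup : ∀ s ∈ Ioi y, A D s ≤ (Ioc y (y + b / κ)).indicator
      (fun s => ENNReal.ofReal ((b - κ * (s - y)) ^ n)) s := by
    intro s hs
    have hs' : y < s := hs
    rcases eq_or_ne (A D s) 0 with hs0 | hs0
    · rw [hs0]; exact zero_le
    have hsx : 0 < s - x := by linarith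
    set t := (y - x) / (s - x) with ht
    have ht0 : 0 < t := div_pos hyx hsx
    have ht1 : t < 1 := (div_lt_one hsx).2 (by linarith)
    have h1 := bm hn h hAx0 hs0 ht0 ht1
    have h2 : (1 - t) * x + t * s = y := by
      rw [ht]; field_simp; ring
    rw [h2, ← ha, ← hb] at h1
    set r := (A D s).toReal ^ (1 / (n : ℝ)) with hr
    have hps : 0 < (A D s).toReal := ENNReal.toReal_pos hs0 (A_fin h s)
    have hr0 : 0 < r := Real.rpow_pos_of_pos hps _
    have hrn : r ^ n = (A D s).toReal := by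
      rw [hr, one_div]
      exact Real.rpow_inv_natCast_pow hps.le hn0
    have h3 : r ≤ b - κ * (s - y) := by
      have h4 : ((1 - t) * a + t * r) * (s - x) ≤ b * (s - x) :=
        mul_le_mul_of_nonneg_right h1 hsx.le
      have h5 : ((1 - t) * a + t * r) * (s - x) = (s - y) * a + (y - x) * r := by
        rw [ht]; field_simp; ring
      rw [h5] at h4
      have h6 : (y - x) * r ≤ (y - x) * (b - κ * (s - y)) := by
        have h7 : (y - x) * (b - κ * (s - y)) = (y - x) * b - (κ * (y - x)) * (s - y) := by ring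
        rw [h7, hκd]
        nlinarith
      exact le_of_mul_le_mul_left h6 hyx
    have h8 : s ∈ Ioc y (y + b / κ) := by
      refine ⟨hs', ?_⟩
      have h9 : κ * (s - y) ≤ b := by linarith
      have h10 : s - y ≤ b / κ := by rw [le_div_iff₀ hκ0]; linarith
      linarith
    rw [indicator_of_mem h8, ← ENNReal.ofReal_toReal (A_fin h s), ← hrn]
    exact ENNReal.ofReal_le_ofReal (by gcongr)
  have hI : ENNReal.ofReal ((a ^ (n + 1) - b ^ (n + 1)) / (((n : ℝ) + 1) * κ)) ≤
      ∫⁻ s in Ioc x y, A D s := by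
    have h1 := int_lin (m := n) (c := a) hκ0 hxy (by rw [hκd]; linarith)
    rw [hκd, sub_sub_cancel] at h1
    rw [← h1]
    exact setLIntegral_mono' measurableSet_Ioc hlow
  have hF : F D y ≤ ENNReal.ofReal (b ^ (n + 1) / (((n : ℝ) + 1) * κ)) := by
    have hbk : κ * (b / κ) = b := by field_simp
    have hp : 0 < b / κ := div_pos hb0 hκ0
    have h1 := int_lin (m := n) (c := b) (p := y) (q := y + b / κ) hκ0 (by linarith)
      (by rw [add_sub_cancel_left, hbk, sub_self])
    rw [add_sub_cancel_left, hbk, sub_self, zero_pow (Nat.succ_ne_zero n), sub_zero] at h1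
    rw [← h1]
    calc F D y ≤ ∫⁻ s in Ioi y, (Ioc y (y + b / κ)).indicator
          (fun s => ENNReal.ofReal ((b - κ * (s - y)) ^ n)) s :=
          setLIntegral_mono' measurableSet_Ioi hup
      _ ≤ ∫⁻ s, (Ioc y (y + b / κ)).indicator
          (fun s => ENNReal.ofReal ((b - κ * (s - y)) ^ n)) s := setLIntegral_le_lintegral _ _
      _ = _ := lintegral_indicator measurableSet_Ioc _
  have hFf : F D y ≠ ∞ := ne_top_of_le_ne_top ENNReal.ofReal_ne_top hF
  set f := (F D y).toReal with hf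
  have hf0 : 0 ≤ f := ENNReal.toReal_nonneg
  have hFe : F D y = ENNReal.ofReal f := (ENNReal.ofReal_toReal hFf).symm
  have hfle : f ≤ b ^ (n + 1) / (((n : ℝ) + 1) * κ) := by
    have h1 : (F D y).toReal ≤ (ENNReal.ofReal (b ^ (n + 1) / (((n : ℝ) + 1) * κ))).toReal :=
      ENNReal.toReal_mono ENNReal.ofReal_ne_top hF
    rwa [ENNReal.toReal_ofReal (by positivity)] at h1
  have hmain := real_ineq (m := n) hb0 hab hκ0 hκd hfle
  have hi0 : 0 ≤ (a ^ (n + 1) - b ^ (n + 1)) / (((n : ℝ) + 1) * κ) := by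
    have h1 : b ^ (n + 1) ≤ a ^ (n + 1) := by gcongr
    have h2 : 0 ≤ a ^ (n + 1) - b ^ (n + 1) := by linarith
    positivity
  have hN : ((n : ℝ≥0∞) + 1) = ENNReal.ofReal ((n : ℝ) + 1) := by
    rw [ENNReal.ofReal_add (by positivity) zero_le_one]
    simp
  rw [F_split D hxy]
  calc ENNReal.ofReal (y - x) * (A D x * A D y) + ((n : ℝ≥0∞) + 1) * (F D y * A D x)
      = ENNReal.ofReal ((y - x) * (a ^ n * b ^ n) + ((n : ℝ) + 1) * (f * a ^ n)) := by
        have e1 : 0 ≤ (y - x) * (a ^ n * b ^ n) := by positivity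
        have e2 : 0 ≤ ((n : ℝ) + 1) * (f * a ^ n) := by positivity
        have e3 : (0 : ℝ) ≤ (n : ℝ) + 1 := by positivity
        have e4 : 0 ≤ a ^ n := by positivity
        rw [hN, hFe, hAxa, hAyb, ENNReal.ofReal_add e1 e2, ENNReal.ofReal_mul hyx.le,
          ENNReal.ofReal_mul e4, ENNReal.ofReal_mul e3, ENNReal.ofReal_mul hf0]
    _ ≤ ENNReal.ofReal (((n : ℝ) + 1) *
          (((a ^ (n + 1) - b ^ (n + 1)) / (((n : ℝ) + 1) * κ) + f) * b ^ n)) :=
        ENNReal.ofReal_le_ofReal hmain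
    _ = ((n : ℝ≥0∞) + 1) *
          ((ENNReal.ofReal ((a ^ (n + 1) - b ^ (n + 1)) / (((n : ℝ) + 1) * κ)) + F D y) *
            A D y) := by
        have e3 : (0 : ℝ) ≤ (n : ℝ) + 1 := by positivity
        rw [hN, hFe, hAyb, ENNReal.ofReal_mul e3, ENNReal.ofReal_mul (add_nonneg hi0 hf0),
          ENNReal.ofReal_add hi0 hf0]
    _ ≤ ((n : ℝ≥0∞) + 1) * (((∫⁻ s in Ioc x y, A D s) + F D y) * A D y) := by gcongr

end Vale.Agent.P254.NS
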