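import Mathlib

/-!
# P254: the numerical inequality (row Q8)
-/

namespace Vale.Agent.P254

namespace Num48

theorem step_large {m : ℕ} (hm : 13 ≤ m) : (1 + 1 / (m : ℝ)) ^ (2 * m + 1) ≤ 8 := by
  have hm0 : (0 : ℝ) < m := by
    have : 0 < m := by omega
    exact_mod_cast this
  have hm3 : (13 : ℝ) ≤ m := by exact_mod_cast hm
  have h1 : (1 + 1 / (m : ℝ)) ^ (2 * m) ≤ Real.exp 1 * Real.exp 1 := by
    have h2 : 1 + 1 / (m : ℝ) ≤ Real.exp (1 / (m : ℝ)) := by
      have := Real.add_one_le_exp (1 / (m : ℝ))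
      linarith
    calc (1 + 1 / (m : ℝ)) ^ (2 * m) ≤ (Real.exp (1 / (m : ℝ))) ^ (2 * m) := by
          gcongr
      _ = Real.exp 1 * Real.exp 1 := by
          rw [← Real.exp_nat_mul, ← Real.exp_add]
          congr 1
          push_cast
          field_simp
          norm_num
  have h3 : 1 / (m : ℝ) ≤ 1 / 13 := one_div_le_one_div_of_le (by norm_num) hm3
  have h4 := Real.exp_one_lt_d9
  have h5 := Real.exp_pos 1
  rw [pow_succ]
  calc (1 + 1 / (m : ℝ)) ^ (2 * m) * (1 + 1 / (m : ℝ))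
      ≤ (Real.exp 1 * Real.exp 1) * (1 + 1 / 13) := by gcongr
    _ ≤ (2.7182818286 * 2.7182818286) * (1 + 1 / 13) := by gcongr
    _ ≤ 8 := by norm_num

theorem step {m : ℕ} (hm : 3 ≤ m) :
    ((m : ℝ) + 1) ^ (2 * m + 1) ≤ 8 * (m : ℝ) ^ (2 * m + 1) := by
  have hm0 : (0 : ℝ) < m := by
    have : 0 < m := by omega
    exact_mod_cast this
  rcases Nat.lt_or_ge m 13 with h | h
  · interval_cases m <;> norm_num
  · have h1 := step_large h
    have h2 : ((m : ℝ) + 1) ^ (2 * m + 1) =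
        (1 + 1 / (m : ℝ)) ^ (2 * m + 1) * (m : ℝ) ^ (2 * m + 1) := by
      rw [← mul_pow]
      congr 1
      field_simp
    rw [h2]
    gcongr

end Num48

theorem num {n : ℕ} (hn : 2 ≤ n) :
    ((n : ℝ) + 1) ^ (2 * n + 1) < 8 ^ n * (n.factorial : ℝ) ^ 2 := by
  induction n, hn using Nat.le_induction with
  | base => norm_num [Nat.factorial]
  | succ n hn ih =>
    have h1 := Num48.step (m := n + 1) (by omega)
    push_cast at h1 ⊢
    have h2 : (8 : ℝ) ^ (n + 1) * ((n + 1).factorial : ℝ) ^ 2 =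
        8 * ((n : ℝ) + 1) ^ 2 * (8 ^ n * (n.factorial : ℝ) ^ 2) := by
      rw [Nat.factorial_succ]
      push_cast
      ring
    have h3 : 8 * ((n : ℝ) + 1) ^ (2 * (n + 1) + 1) =
        8 * ((n : ℝ) + 1) ^ 2 * ((n : ℝ) + 1) ^ (2 * n + 1) := by ring
    rw [h2]
    refine h1.trans_lt ?_
    rw [h3]
    exact mul_lt_mul_of_pos_left ih (by positivity)

end Vale.Agent.P254
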