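import Vale.Agent.P254.Defs

/-!
P254, row Q5: the positive part of a 1-symmetric convex body
-/

namespace Vale.Agent.P254

open MeasureTheory
open scoped ENNReal

namespace Pos

/-- unconditional convex sets are solid -/
theorem solid {n : ℕ} {K : Set (Fin n → ℝ)} (hv : Convex ℝ K)
    (hflip : ∀ x ∈ K, ∀ j, Function.update x j (-x j) ∈ K) {x y : Fin n → ℝ} (hx : x ∈ K)
    (h : ∀ i, |y i| ≤ |x i|) : y ∈ K := by
  classical
  have key : ∀ s : Finset (Fin n), (fun i => if i ∈ s then y i else x i) ∈ K := by
    intro s
    induction s using Finset.induction_on with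
    | empty => simpa using hx
    | insert j s hj ih =>
      set z : Fin n → ℝ := fun i => if i ∈ s then y i else x i with hz
      have hzj : z j = x j := by simp [hz, hj]
      have e : (fun i => if i ∈ insert j s then y i else x i) = Function.update z j (y j) := by
        funext i
        by_cases hi : i = j
        · subst hi
          simp
        · simp [hz, hi]
      rw [e]
      by_cases hx0 : x j = 0
      · have hy0 : y j = 0 := by
          have := h j
          rw [hx0, abs_zero] at this
          exact abs_eq_zero.1 (le_antisymm this (abs_nonneg _))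
        have e2 : Function.update z j (y j) = z := by
          rw [hy0, ← hx0, ← hzj, Function.update_eq_self]
        rw [e2]
        exact ih
      · set l : ℝ := (1 + y j / x j) / 2 with hl
        have h1 : |y j / x j| ≤ 1 := by
          rw [abs_div, div_le_one (abs_pos.2 hx0)]
          exact h j
        obtain ⟨h2, h3⟩ := abs_le.1 h1
        have h4 : 0 ≤ l := by rw [hl]; linarith
        have h5 : 0 ≤ 1 - l := by rw [hl]; linarith
        have h6 := hv ih (hflip z ih j) h4 h5 (by ring)
        convert h6 using 1
        funext i
        by_cases hi : i = j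
        · subst hi
          simp only [Function.update_self, Pi.add_apply, Pi.smul_apply, smul_eq_mul]
          rw [hzj, hl]
          field_simp
          ring
        · simp only [Function.update_of_ne hi, Pi.add_apply, Pi.smul_apply, smul_eq_mul]
          ring
  have := key Finset.univ
  simpa using this

end Pos

/-- the positive part of a 1-symmetric convex body -/
theorem ab_pos {n : ℕ} {K : Set (Fin n → ℝ)} (hK : Convex ℝ K) (hc : IsCompact K)
    (hs : ∀ s : Fin n → ℤˣ, ∀ x ∈ K, (fun i => ((s i : ℤ) : ℝ) * x i) ∈ K)
    (hp : ∀ π : Equiv.Perm (Fin n), ∀ x ∈ K, (x ∘ π) ∈ K) : AB (posPart K) := by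
  classical
  have hflip : ∀ x ∈ K, ∀ j, Function.update x j (-x j) ∈ K := by
    intro x hx j
    have h1 := hs (Function.update (fun _ => (1 : ℤˣ)) j (-1)) x hx
    have e : (fun i => (((Function.update (fun _ => (1 : ℤˣ)) j (-1) : Fin n → ℤˣ) i : ℤ) : ℝ) *
        x i) = Function.update x j (-x j) := by
      funext i
      by_cases hi : i = j
      · subst hi
        simp
      · simp [Function.update_of_ne hi]
    rwa [e] at h1
  have hcl : IsClosed {x : Fin n → ℝ | ∀ i, 0 ≤ x i} := by
    rw [Set.ofPred_forall]
    exact isClosed_iInter fun i => isClosed_le continuous_const (continuous_apply i)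
  have hcv : Convex ℝ {x : Fin n → ℝ | ∀ i, 0 ≤ x i} := by
    intro x hx y hy a b ha hb _ i
    exact add_nonneg (mul_nonneg ha (hx i)) (mul_nonneg hb (hy i))
  refine ⟨hc.inter_right hcl, hK.inter hcv, fun x hx => hx.2, ?_, ?_⟩
  · intro x hx y hy0 hyx
    refine ⟨Pos.solid hK hflip hx.1 fun i => ?_, hy0⟩
    rw [abs_of_nonneg (hy0 i), abs_of_nonneg (hx.2 i)]
    exact hyx i
  · intro x hx π
    exact ⟨hp π x hx.1, fun i => hx.2 (π i)⟩

end Vale.Agent.P254
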