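import Vale.Agent.P254.Defs

/-! P254, row Q7: volume and covariance of the standard simplex (Dirichlet integrals). -/

namespace Vale.Agent.P254

open MeasureTheory
open scoped ENNReal

namespace Simp

theorem fin_zero (f : (Fin 0 → ℝ) → ℝ≥0∞) : ∫⁻ x, f x = f 0 := by
  have h : (volume : Measure (Fin 0 → ℝ)) = Measure.dirac 0 := by
    rw [volume_pi]
    exact Measure.pi_of_empty _ 0
  rw [h, lintegral_dirac]

theorem fin_succ {d : ℕ} {f : (Fin (d + 1) → ℝ) → ℝ≥0∞} (hf : Measurable f) :
    ∫⁻ x, f x = ∫⁻ a : ℝ, ∫⁻ v : Fin d → ℝ, f (Fin.cons a v) := by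
  have hmp := (volume_preserving_piFinSuccAbove (fun _ : Fin (d + 1) => ℝ) 0).symm
  have h1 : ∀ p : ℝ × (Fin d → ℝ),
      (MeasurableEquiv.piFinSuccAbove (fun _ : Fin (d + 1) => ℝ) 0).symm p
        = (Fin.cons p.1 p.2 : Fin (d + 1) → ℝ) := by
    intro p
    simp [MeasurableEquiv.piFinSuccAbove, Fin.insertNthEquiv]
  have h2 := hmp.lintegral_comp hf
  rw [← h2, Measure.volume_eq_prod, lintegral_prod _ (by
    exact (hf.comp (MeasurableEquiv.measurable _)).aemeasurable)]
  simp only [h1]

/-- the Beta integral -/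
theorem beta (p : ℕ) : ∀ (q : ℕ) (t : ℝ), ∫ s in (0 : ℝ)..t, s ^ p * (t - s) ^ q =
    (p.factorial : ℝ) * (q.factorial : ℝ) / ((p + q + 1).factorial : ℝ) * t ^ (p + q + 1) := by
  induction p with
  | zero =>
    intro q t
    have h1 : ∫ s in (0 : ℝ)..t, s ^ 0 * (t - s) ^ q = ∫ s in (0 : ℝ)..t, (t - s) ^ q := by
      simp
    rw [h1, intervalIntegral.integral_comp_sub_left (fun x => x ^ q) t, sub_self, sub_zero,
      integral_pow]
    have h2 : (0 + q + 1).factorial = (q + 1) * q.factorial := by
      rw [Nat.zero_add, Nat.factorial_succ]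
    rw [h2]
    push_cast
    have h3 : (q.factorial : ℝ) ≠ 0 := by exact_mod_cast q.factorial_ne_zero
    have h4 : (q : ℝ) + 1 ≠ 0 := by positivity
    rw [zero_pow (by omega), Nat.zero_add]
    field_simp
    simp
  | succ p ih =>
    intro q t
    have hu : ∀ x ∈ Set.uIcc 0 t, HasDerivAt (fun s : ℝ => s ^ (p + 1))
        (((p : ℝ) + 1) * x ^ p) x := by
      intro x _
      have := hasDerivAt_pow (p + 1) x
      simpa using this
    have h4 : (q : ℝ) + 1 ≠ 0 := by positivity
    have hv : ∀ x ∈ Set.uIcc 0 t, HasDerivAt (fun s : ℝ => -((t - s) ^ (q + 1) / ((q : ℝ) + 1)))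
        ((t - x) ^ q) x := by
      intro x _
      have h1 : HasDerivAt (fun s : ℝ => t - s) (-1) x := by
        simpa using (hasDerivAt_id x).const_sub t
      have h2 : HasDerivAt (fun s : ℝ => -((t - s) ^ (q + 1) / ((q : ℝ) + 1)))
          (-(((q + 1 : ℕ) : ℝ) * (t - x) ^ (q + 1 - 1) * -1 / ((q : ℝ) + 1))) x :=
        ((h1.pow (q + 1)).div_const ((q : ℝ) + 1)).neg
      refine h2.congr_deriv ?_
      push_cast
      field_simp
    have hi := intervalIntegral.integral_mul_deriv_eq_deriv_mul hu hv
      ((Continuous.intervalIntegrable (by fun_prop) _ _))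
      ((Continuous.intervalIntegrable (by fun_prop) _ _))
    rw [hi]
    have h5 : ∫ x in (0 : ℝ)..t, ((p : ℝ) + 1) * x ^ p * -((t - x) ^ (q + 1) / ((q : ℝ) + 1)) =
        -(((p : ℝ) + 1) / ((q : ℝ) + 1)) * ∫ x in (0 : ℝ)..t, x ^ p * (t - x) ^ (q + 1) := by
      rw [← intervalIntegral.integral_const_mul]
      congr 1
      ext x
      field_simp
    rw [h5, ih (q + 1) t]
    have e1 : p + (q + 1) + 1 = p + 1 + q + 1 := by ring
    rw [e1, Nat.factorial_succ p, Nat.factorial_succ q]
    push_cast
    simp only [sub_self]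
    rw [zero_pow (by omega : q + 1 ≠ 0), zero_pow (by omega : p + 1 ≠ 0)]
    have h6 : ((p + 1 + q + 1).factorial : ℝ) ≠ 0 := by
      exact_mod_cast (p + 1 + q + 1).factorial_ne_zero
    field_simp
    ring

/-- the simplex of size `t` -/
def ST (n : ℕ) (t : ℝ) : Set (Fin n → ℝ) := {x | (∀ i, 0 ≤ x i) ∧ ∑ i, x i ≤ t}

theorem isClosed_ST (n : ℕ) (t : ℝ) : IsClosed (ST n t) := by
  have h : ST n t = (⋂ i, {x : Fin n → ℝ | 0 ≤ x i}) ∩ {x | ∑ i, x i ≤ t} := by
    ext x
    simp [ST]
  rw [h]
  refine IsClosed.inter (isClosed_iInter fun i => ?_) ?_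
  · exact isClosed_le continuous_const (continuous_apply i)
  · exact isClosed_le (by fun_prop) continuous_const

theorem meas_ST (n : ℕ) (t : ℝ) : MeasurableSet (ST n t) := (isClosed_ST n t).measurableSet

theorem isCompact_ST (n : ℕ) (t : ℝ) : IsCompact (ST n t) := by
  refine (isCompact_Icc (a := (0 : Fin n → ℝ)) (b := fun _ => t)).of_isClosed_subset
    (isClosed_ST n t) ?_
  intro x hx
  rw [Set.mem_Icc]
  refine ⟨fun i => hx.1 i, fun i => ?_⟩
  exact (Finset.single_le_sum (fun j _ => hx.1 j) (Finset.mem_univ i)).trans hx.2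

/-- the Dirichlet integral -/
theorem dir (n : ℕ) : ∀ (a : Fin n → ℕ) (t : ℝ), 0 ≤ t →
    ∫⁻ x in ST n t, ENNReal.ofReal (∏ i, x i ^ a i) =
      ENNReal.ofReal ((∏ i, ((a i).factorial : ℝ)) / ((n + ∑ i, a i).factorial : ℝ) *
        t ^ (n + ∑ i, a i)) := by
  induction n with
  | zero =>
    intro a t ht
    rw [← lintegral_indicator (meas_ST 0 t), fin_zero]
    have h0 : (0 : Fin 0 → ℝ) ∈ ST 0 t := by
      refine ⟨fun i => i.elim0, ?_⟩
      simpa using ht
    rw [Set.indicator_of_mem h0]
    simp
  | succ n ih =>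
    intro a t ht
    have hcont : Continuous (fun x : Fin (n + 1) → ℝ => ∏ i, x i ^ a i) := by fun_prop
    have hmeas : Measurable (fun x : Fin (n + 1) → ℝ => ENNReal.ofReal (∏ i, x i ^ a i)) :=
      ENNReal.measurable_ofReal.comp hcont.measurable
    rw [← lintegral_indicator (meas_ST (n + 1) t), fin_succ (hmeas.indicator (meas_ST (n + 1) t))]
    set C : ℝ := (∏ i : Fin n, ((a i.succ).factorial : ℝ)) /
      ((n + ∑ i : Fin n, a i.succ).factorial : ℝ) with hC
    set m : ℕ := n + ∑ i : Fin n, a i.succ with hm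
    have hC0 : 0 ≤ C := by
      rw [hC]
      positivity
    have key : ∀ s : ℝ, ∫⁻ v : Fin n → ℝ, (ST (n + 1) t).indicator
        (fun x => ENNReal.ofReal (∏ i, x i ^ a i)) (Fin.cons s v) =
        (Set.Icc 0 t).indicator
          (fun s => ENNReal.ofReal (C * (s ^ a 0 * (t - s) ^ m))) s := by
      intro s
      by_cases hs : s ∈ Set.Icc 0 t
      · rw [Set.indicator_of_mem hs]
        have h1 : ∀ v : Fin n → ℝ, (ST (n + 1) t).indicator
            (fun x => ENNReal.ofReal (∏ i, x i ^ a i)) (Fin.cons s v) =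
            ENNReal.ofReal (s ^ a 0) * (ST n (t - s)).indicator
              (fun x => ENNReal.ofReal (∏ i, x i ^ a i.succ)) v := by
          intro v
          by_cases hv : v ∈ ST n (t - s)
          · have hv' : (Fin.cons s v : Fin (n + 1) → ℝ) ∈ ST (n + 1) t := by
              refine ⟨fun i => ?_, ?_⟩
              · refine Fin.cases ?_ (fun j => ?_) i
                · exact hs.1
                · exact hv.1 j
              · rw [Fin.sum_univ_succ]
                simp only [Fin.cons_zero, Fin.cons_succ]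
                have := hv.2
                linarith
            rw [Set.indicator_of_mem hv, Set.indicator_of_mem hv', Fin.prod_univ_succ]
            simp only [Fin.cons_zero, Fin.cons_succ]
            rw [ENNReal.ofReal_mul (pow_nonneg hs.1 _)]
          · have hv' : (Fin.cons s v : Fin (n + 1) → ℝ) ∉ ST (n + 1) t := by
              intro h
              apply hv
              refine ⟨fun i => ?_, ?_⟩
              · have := h.1 i.succ
                simpa using this
              · have := h.2
                rw [Fin.sum_univ_succ] at this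
                simp only [Fin.cons_zero, Fin.cons_succ] at this
                linarith
            rw [Set.indicator_of_notMem hv, Set.indicator_of_notMem hv', mul_zero]
        simp_rw [h1]
        have hmeas' : Measurable (fun x : Fin n → ℝ =>
            ENNReal.ofReal (∏ i, x i ^ a i.succ)) :=
          ENNReal.measurable_ofReal.comp (Continuous.measurable (by fun_prop))
        rw [lintegral_const_mul _ (hmeas'.indicator (meas_ST n (t - s))),
          lintegral_indicator (meas_ST n (t - s)), ih (fun i => a i.succ) (t - s)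
          (by linarith [hs.2]), ← ENNReal.ofReal_mul (pow_nonneg hs.1 _)]
        congr 1
        rw [← hC]
        ring
      · rw [Set.indicator_of_notMem hs]
        have h1 : ∀ v : Fin n → ℝ, (ST (n + 1) t).indicator
            (fun x => ENNReal.ofReal (∏ i, x i ^ a i)) (Fin.cons s v) = 0 := by
          intro v
          apply Set.indicator_of_notMem
          intro h
          apply hs
          have h0 := h.1 0
          have h2 := h.2
          rw [Fin.sum_univ_succ] at h2
          simp only [Fin.cons_zero, Fin.cons_succ] at h0 h2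
          have h3 : 0 ≤ ∑ i, v i := Finset.sum_nonneg fun i _ => by
            have := h.1 i.succ
            simpa using this
          exact ⟨h0, by linarith⟩
        simp_rw [h1]
        simp
    simp_rw [key]
    rw [lintegral_indicator measurableSet_Icc, ← ofReal_integral_eq_lintegral_ofReal
      ((Continuous.continuousOn (by fun_prop)).integrableOn_compact isCompact_Icc)
      ((ae_restrict_mem measurableSet_Icc).mono fun s hs => by
        have h1 : 0 ≤ s := hs.1
        have h2 : 0 ≤ t - s := by linarith [hs.2]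
        positivity)]
    congr 1
    rw [integral_Icc_eq_integral_Ioc, ← intervalIntegral.integral_of_le ht,
      intervalIntegral.integral_const_mul, beta]
    have e1 : a 0 + m + 1 = n + 1 + ∑ i, a i := by
      rw [Fin.sum_univ_succ, hm]
      ring
    rw [← e1, Fin.prod_univ_succ, hC]
    have h5 : (m.factorial : ℝ) ≠ 0 := by exact_mod_cast m.factorial_ne_zero
    field_simp

theorem simplex_eq (n : ℕ) : simplex n = ST n 1 := rfl

/-- Dirichlet integrals over the standard simplex, real form -/
theorem dirR (n : ℕ) (a : Fin n → ℕ) :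
    ∫ x in simplex n, ∏ i, x i ^ a i =
      (∏ i, ((a i).factorial : ℝ)) / ((n + ∑ i, a i).factorial : ℝ) := by
  have h := dir n a 1 zero_le_one
  rw [one_pow, mul_one] at h
  rw [simplex_eq, integral_eq_lintegral_of_nonneg_ae, h, ENNReal.toReal_ofReal (by positivity)]
  · refine (ae_restrict_mem (meas_ST n 1)).mono fun x hx => ?_
    exact Finset.prod_nonneg fun i _ => pow_nonneg (hx.1 i) _
  · exact (Continuous.measurable (by fun_prop)).aestronglyMeasurable

end Simp

theorem simplex_vol (n : ℕ) : volume.real (simplex n) = 1 / (n.factorial : ℝ) := by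
  have h := Simp.dirR n (fun _ => 0)
  simpa using h

namespace Simp

theorem prod_single {n : ℕ} (x : Fin n → ℝ) (i : Fin n) :
    ∏ k, x k ^ (Pi.single i 1 : Fin n → ℕ) k = x i := by
  rw [Finset.prod_eq_single i]
  · simp
  · intro b _ hb
    rw [Pi.single_eq_of_ne hb, pow_zero]
  · intro h
    exact absurd (Finset.mem_univ i) h

theorem sum_single {n : ℕ} (i : Fin n) : ∑ k, (Pi.single i 1 : Fin n → ℕ) k = 1 := by
  rw [Finset.sum_eq_single i]
  · simp
  · intro b _ hb
    rw [Pi.single_eq_of_ne hb]
  · intro h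
    exact absurd (Finset.mem_univ i) h

theorem mom1 (n : ℕ) (i : Fin n) :
    ∫ x in simplex n, x i = 1 / ((n + 1).factorial : ℝ) := by
  have h := dirR n (Pi.single i 1)
  simp_rw [prod_single] at h
  rw [h, sum_single]
  congr 1
  apply Finset.prod_eq_one
  intro k _
  by_cases hk : k = i
  · subst hk
    simp
  · rw [Pi.single_eq_of_ne hk]
    simp

theorem mom2 (n : ℕ) (i j : Fin n) :
    ∫ x in simplex n, x i * x j =
      (if i = j then 2 else 1) / ((n + 2).factorial : ℝ) := by
  have h := dirR n (Pi.single i 1 + Pi.single j 1)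
  have h1 : ∀ x : Fin n → ℝ, ∏ k, x k ^ (Pi.single i 1 + Pi.single j 1 : Fin n → ℕ) k =
      x i * x j := by
    intro x
    rw [← prod_single x i, ← prod_single x j, ← Finset.prod_mul_distrib]
    apply Finset.prod_congr rfl
    intro k _
    rw [Pi.add_apply, pow_add]
  simp_rw [h1] at h
  rw [h]
  have h2 : ∑ k, (Pi.single i 1 + Pi.single j 1 : Fin n → ℕ) k = 2 := by
    simp only [Pi.add_apply]
    rw [Finset.sum_add_distrib, sum_single, sum_single]
  rw [h2]
  congr 1
  by_cases hij : i = j
  · subst hij
    rw [if_pos rfl, Finset.prod_eq_single i]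
    · simp
    · intro b _ hb
      rw [Pi.add_apply, Pi.single_eq_of_ne hb]
      simp
    · intro h
      exact absurd (Finset.mem_univ i) h
  · rw [if_neg hij]
    apply Finset.prod_eq_one
    intro k _
    rw [Pi.add_apply]
    by_cases hk : k = i
    · subst hk
      rw [Pi.single_eq_same, Pi.single_eq_of_ne hij]
      simp
    · rw [Pi.single_eq_of_ne hk]
      by_cases hk2 : k = j
      · subst hk2
        simp
      · rw [Pi.single_eq_of_ne hk2]
        simp

theorem intble {n : ℕ} {f : (Fin n → ℝ) → ℝ} (hf : Continuous f) :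
    IntegrableOn f (simplex n) :=
  hf.continuousOn.integrableOn_compact (isCompact_ST n 1)

theorem fac_pos (n : ℕ) : 0 < (n.factorial : ℝ) := by exact_mod_cast n.factorial_pos

theorem cen (n : ℕ) (i : Fin n) : centroid (simplex n) i = 1 / ((n : ℝ) + 1) := by
  unfold centroid
  rw [mom1, simplex_vol, Nat.factorial_succ]
  push_cast
  have := fac_pos n
  field_simp

theorem cov_apply (n : ℕ) (i j : Fin n) :
    cov (simplex n) i j =
      (((n : ℝ) + 1) * (1 : Matrix (Fin n) (Fin n) ℝ) i j - 1) /
        (((n : ℝ) + 1) ^ 2 * ((n : ℝ) + 2)) := by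
  unfold cov
  rw [cen, cen, simplex_vol]
  set c : ℝ := 1 / ((n : ℝ) + 1) with hc
  have h1 : ∀ x : Fin n → ℝ, (x i - c) * (x j - c) = x i * x j - c * x i - c * x j + c ^ 2 := by
    intro x
    ring
  simp_rw [h1]
  have i1 : IntegrableOn (fun x : Fin n → ℝ => x i * x j) (simplex n) := intble (by fun_prop)
  have i2 : IntegrableOn (fun x : Fin n → ℝ => c * x i) (simplex n) := intble (by fun_prop)
  have i3 : IntegrableOn (fun x : Fin n → ℝ => c * x j) (simplex n) := intble (by fun_prop)
  have i4 : IntegrableOn (fun _ : Fin n → ℝ => c ^ 2) (simplex n) := intble (by fun_prop)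
  have e1 := integral_add (μ := volume.restrict (simplex n))
    (f := fun x : Fin n → ℝ => x i * x j - c * x i - c * x j) (g := fun _ => c ^ 2)
    ((i1.sub i2).sub i3) i4
  have e2 := integral_sub (μ := volume.restrict (simplex n))
    (f := fun x : Fin n → ℝ => x i * x j - c * x i) (g := fun x => c * x j) (i1.sub i2) i3
  have e3 := integral_sub (μ := volume.restrict (simplex n))
    (f := fun x : Fin n → ℝ => x i * x j) (g := fun x => c * x i) i1 i2
  rw [e1, e2, e3, integral_const_mul, integral_const_mul, setIntegral_const, mom2, mom1, mom1,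
    simplex_vol, smul_eq_mul, Nat.factorial_succ (n + 1), Nat.factorial_succ n, hc,
    Matrix.one_apply]
  push_cast
  have h2 := fac_pos n
  have h3 : (n : ℝ) + 1 + 1 = n + 2 := by ring
  rw [h3]
  have h4 : (n : ℝ) + 1 ≠ 0 := by positivity
  have h5 : (n : ℝ) + 2 ≠ 0 := by positivity
  split_ifs with hij
  · field_simp
    ring
  · field_simp
    ring

end Simp

theorem simplex_cov (n : ℕ) :
    (cov (simplex n)).det = 1 / (((n : ℝ) + 1) ^ (n + 1) * ((n : ℝ) + 2) ^ n) := by
  have h4 : (n : ℝ) + 1 ≠ 0 := by positivity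
  have h5 : (n : ℝ) + 2 ≠ 0 := by positivity
  have h1 : cov (simplex n) = (1 / (((n : ℝ) + 1) * ((n : ℝ) + 2))) •
      (1 + Matrix.replicateCol Unit (fun _ : Fin n => -(1 / ((n : ℝ) + 1))) *
        Matrix.replicateRow Unit (fun _ : Fin n => (1 : ℝ))) := by
    ext i j
    rw [Simp.cov_apply, Matrix.smul_apply, Matrix.add_apply, Matrix.mul_apply, smul_eq_mul]
    simp only [Finset.univ_unique, Finset.sum_singleton, Matrix.replicateCol_apply,
      Matrix.replicateRow_apply]
    field_simp
    ring
  rw [h1, Matrix.det_smul, Matrix.det_one_add_replicateCol_mul_replicateRow, Fintype.card_fin]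
  have h6 : (fun _ : Fin n => (1 : ℝ)) ⬝ᵥ (fun _ : Fin n => -(1 / ((n : ℝ) + 1))) =
      -((n : ℝ) / ((n : ℝ) + 1)) := by
    simp [dotProduct]
    field_simp
  rw [h6, div_pow, one_pow, mul_pow]
  field_simp
  ring

end Vale.Agent.P254
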